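import Vale.Agent.P256.H858.Pen

/-! The tangent cone `Kz` in terms of the interface pencils, base `f` and base `z`. -/

set_option linter.all false

namespace Vale.Agent.P256.H858

open MvPolynomial Filter Topology Matrix Vale.Agent.P256 Vale.Agent.P256.H326 Vale.Agent.P256.H387

theorem Kz_eq {n : ℕ} (p : MvPolynomial (Fin n) ℝ) (e z : Fin n → ℝ) : Kz p e z = TC p e z := rfl

section Lemmas

variable {ι : Type} [Fintype ι] [DecidableEq ι] {G0 G1 : Matrix ι ι ℝ} {H DH : ℝ → Matrix ι ι ℝ}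

theorem continuousAt_H (nk : ∀ i j, NK (fun s => H s i j) (fun s => DH s i j)) :
    Tendsto H (𝓝 0) (𝓝 (H 0)) :=
  tendsto_pi_nhds.2 fun i => tendsto_pi_nhds.2 fun j => (nk i j).cont

theorem Gs_zero : Gs G0 G1 H 0 = G0 := by
  simp [Gs]

theorem herm_smul {A : Matrix ι ι ℝ} (hA : A.IsHermitian) (c : ℝ) : (c • A).IsHermitian := by
  show (c • A)ᴴ = c • A
  rw [Matrix.conjTranspose_smul, star_trivial, hA.eq]

theorem Gs_herm (h0 : G0.IsHermitian) (h1 : G1.IsHermitian) (hH : ∀ s, (H s).IsHermitian) (s : ℝ) :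
    (Gs G0 G1 H s).IsHermitian :=
  (h0.add (herm_smul h1 s)).add (herm_smul (hH s) _)

end Lemmas

section Main

variable {n : ℕ} {p : MvPolynomial (Fin n) ℝ} {e f w z : Fin n → ℝ} {ι : Type} [Fintype ι]
  [DecidableEq ι] {B G0 G1 D A0 A1 : Matrix ι ι ℝ} {H DH : ℝ → Matrix ι ι ℝ}

theorem isPen_D_psd (P : IsPen p e f w z B D G1 H DH) (hz : z ∈ hypCone p e) : D.PosSemidef := by
  have h1 := P.psd.self_of_nhds 0 0 1
  have h2 : (0 : ℝ) • e + (0 : ℝ) • f + (1 : ℝ) • (z + (0 : ℝ) • w) = z := by module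
  rw [h2] at h1
  have h3 := h1.1 hz
  have h4 : Pn B D G1 H 0 0 1 0 = D := by
    rw [Pn, Gs_zero, zero_smul, zero_smul, zero_add, one_smul, zero_add]
  rwa [h4] at h3

/-- **tangent vectors, base `f`** -/
theorem mem_Kz_f (P : IsPen p e f w z B D G1 H DH) (hz : z ∈ hypCone p e) (x0 b a : ℝ) :
    x0 • e + b • f + a • w ∈ Kz p e z ↔
      ∀ u : ι → ℝ, D *ᵥ u = 0 → 0 ≤ u ⬝ᵥ ((x0 • (1 : Matrix ι ι ℝ) + b • B + a • G1) *ᵥ u) := by
  rw [Kz_eq]
  have hta : Tendsto (fun t : ℝ => t * a) (𝓝[>] (0 : ℝ)) (𝓝 0) := by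
    have : Tendsto (fun t : ℝ => t * a) (𝓝 (0 : ℝ)) (𝓝 (0 * a)) :=
      (continuous_id.mul continuous_const).tendsto 0
    rw [zero_mul] at this
    exact this.mono_left nhdsWithin_le_nhds
  have ht0 : Tendsto (fun t : ℝ => t) (𝓝[>] (0 : ℝ)) (𝓝 0) :=
    tendsto_id.mono_left nhdsWithin_le_nhds
  refine mem_TC_iff (D := D) (K := fun t => x0 • (1 : Matrix ι ι ℝ) + b • B + a • G1 +
    (t * a ^ 2) • H (t * a)) (isPen_D_psd P hz) ?_ ?_ ?_
  · refine Eventually.of_forall fun t => ?_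
    exact (((herm_smul Matrix.isHermitian_one x0).add (herm_smul P.symB b)).add
      (herm_smul P.sym1 a)).add (herm_smul (P.symH _) _)
  · have h1 : Tendsto (fun t : ℝ => (t * a ^ 2) • H (t * a)) (𝓝[>] (0 : ℝ))
        (𝓝 ((0 * a ^ 2 : ℝ) • H 0)) :=
      (ht0.mul_const (a ^ 2)).smul ((continuousAt_H P.nk).comp hta)
    rw [zero_mul, zero_smul] at h1
    have h2 := (tendsto_const_nhds (x := x0 • (1 : Matrix ι ι ℝ) + b • B + a • G1)).add h1
    rw [add_zero] at h2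
    exact h2
  · filter_upwards [hta.eventually P.psd] with t ht τ
    have h1 : z + t • (x0 • e + b • f + a • w) + τ • e =
        (τ + t * x0) • e + (t * b) • f + (1 : ℝ) • (z + (t * a) • w) := by module
    rw [h1, ht]
    have h2 : Pn B D G1 H (τ + t * x0) (t * b) 1 (t * a) = τ • (1 : Matrix ι ι ℝ) +
        (D + t • (x0 • (1 : Matrix ι ι ℝ) + b • B + a • G1 + (t * a ^ 2) • H (t * a))) := by
      rw [Pn, Gs]
      module
    rw [h2]

theorem isPenZ_D_psd (P : IsPen p e z w f D A0 A1 H DH) (hz : z ∈ hypCone p e) :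
    D.PosSemidef := by
  have h1 := P.psd.self_of_nhds 0 1 0
  have h2 : (0 : ℝ) • e + (1 : ℝ) • z + (0 : ℝ) • (f + (0 : ℝ) • w) = z := by module
  rw [h2] at h1
  have h3 := h1.1 hz
  have h4 : Pn D A0 A1 H 0 1 0 0 = D := by
    rw [Pn, zero_smul, zero_smul, zero_add, one_smul, add_zero]
  rwa [h4] at h3

/-- **tangent vectors, base `z`** -/
theorem mem_Kz_z (P : IsPen p e z w f D A0 A1 H DH) (hz : z ∈ hypCone p e) :
    ∀ᶠ s in 𝓝 (0 : ℝ), ∀ x0 h : ℝ, (x0 • e + h • (f + s • w) ∈ Kz p e z ↔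
      ∀ u : ι → ℝ, D *ᵥ u = 0 →
        0 ≤ u ⬝ᵥ ((x0 • (1 : Matrix ι ι ℝ) + h • Gs A0 A1 H s) *ᵥ u)) := by
  filter_upwards [P.psd] with s hs x0 h
  rw [Kz_eq]
  refine mem_TC_iff (D := D) (K := fun _ => x0 • (1 : Matrix ι ι ℝ) + h • Gs A0 A1 H s)
    (isPenZ_D_psd P hz) ?_ tendsto_const_nhds ?_
  · refine Eventually.of_forall fun t => ?_
    exact (herm_smul Matrix.isHermitian_one x0).add
      (herm_smul (Gs_herm P.sym0 P.sym1 P.symH s) h)
  · refine Eventually.of_forall fun t τ => ?_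
    have h1 : z + t • (x0 • e + h • (f + s • w)) + τ • e =
        (τ + t * x0) • e + (1 : ℝ) • z + (t * h) • (f + s • w) := by module
    rw [h1, hs]
    have h2 : Pn D A0 A1 H (τ + t * x0) 1 (t * h) s = τ • (1 : Matrix ι ι ℝ) +
        (D + t • (x0 • (1 : Matrix ι ι ℝ) + h • Gs A0 A1 H s)) := by
      rw [Pn]
      module
    rw [h2]

end Main

end Vale.Agent.P256.H858
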