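import Vale.Agent.P256.H858.Exist

/-! The interface pencils in the frames of the geometric context; block form at the base `z`. -/

set_option linter.all false

namespace Vale.Agent.P256.H858

open MvPolynomial Filter Topology Matrix Vale.Agent.P256 Vale.Agent.P256.H326 Vale.Agent.P256.H387
open scoped ComplexOrder ComplexConjugate

section Frames

/-- a frame of the interface gives coordinates with respect to four vectors -/
theorem fr4_of_li {n : ℕ} {e f g k : Fin n → ℝ} (hn : n = 4)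
    (h : LinearIndependent ℝ ![e, f, g, k]) : Nonempty (Fr4 e f g k) := by
  subst hn
  let b : Module.Basis (Fin 4) ℝ (Fin 4 → ℝ) :=
    basisOfLinearIndependentOfCardEqFinrank h (by simp)
  have hb : ⇑b = ![e, f, g, k] := coe_basisOfLinearIndependentOfCardEqFinrank h _
  have h0 : b 0 = e := by rw [hb]; rfl
  have h1 : b 1 = f := by rw [hb]; rfl
  have h2 : b 2 = g := by rw [hb]; rfl
  have h3 : b 3 = k := by rw [hb]; rfl
  have hc : ∀ i j, b.coord i (b j) = if j = i then 1 else 0 := by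
    intro i j
    rw [Module.Basis.coord_apply, Module.Basis.repr_self, Finsupp.single_apply]
  refine ⟨⟨b.coord 0, b.coord 1, b.coord 2, b.coord 3, ?_, ?_, ?_, ?_, ?_⟩⟩
  · intro x
    have := b.sum_repr x
    rw [Fin.sum_univ_four, h0, h1, h2, h3] at this
    exact this.symm
  · have a0 := hc 0 0
    have a1 := hc 0 1
    have a2 := hc 0 2
    have a3 := hc 0 3
    rw [h0] at a0; rw [h1] at a1; rw [h2] at a2; rw [h3] at a3
    exact ⟨by simpa using a0, by simpa using a1, by simpa using a2, by simpa using a3⟩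
  · have a0 := hc 1 0
    have a1 := hc 1 1
    have a2 := hc 1 2
    have a3 := hc 1 3
    rw [h0] at a0; rw [h1] at a1; rw [h2] at a2; rw [h3] at a3
    exact ⟨by simpa using a0, by simpa using a1, by simpa using a2, by simpa using a3⟩
  · have a0 := hc 2 0
    have a1 := hc 2 1
    have a2 := hc 2 2
    have a3 := hc 2 3
    rw [h0] at a0; rw [h1] at a1; rw [h2] at a2; rw [h3] at a3
    exact ⟨by simpa using a0, by simpa using a1, by simpa using a2, by simpa using a3⟩
  · have a0 := hc 3 0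
    have a1 := hc 3 1
    have a2 := hc 3 2
    have a3 := hc 3 3
    rw [h0] at a0; rw [h1] at a1; rw [h2] at a2; rw [h3] at a3
    exact ⟨by simpa using a0, by simpa using a1, by simpa using a2, by simpa using a3⟩

variable {e z f w : Fin 4 → ℝ} {ζ : (Fin 4 → ℝ) →ₗ[ℝ] ℝ}

theorem fr4_f (h : Fr e z ζ f w) : Nonempty (Fr4 e f w z) := by
  refine fr4_of_li rfl ?_
  have h1 := h.li.comp ![1, 2, 3, 0] (by decide)
  have h2 : ![z, e, f, w] ∘ ![1, 2, 3, 0] = ![e, f, w, z] := by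
    funext i
    fin_cases i <;> rfl
  rwa [h2] at h1

theorem fr4_z (h : Fr e z ζ f w) : Nonempty (Fr4 e z w f) := by
  refine fr4_of_li rfl ?_
  have h1 := h.li.comp ![1, 0, 3, 2] (by decide)
  have h2 : ![z, e, f, w] ∘ ![1, 0, 3, 2] = ![e, z, w, f] := by
    funext i
    fin_cases i <;> rfl
  rwa [h2] at h1

end Frames

section Reindex

variable {n : ℕ} {p : MvPolynomial (Fin n) ℝ} {e f g k : Fin n → ℝ} {ι κ : Type} [Fintype ι]
  [DecidableEq ι] [Fintype κ] [DecidableEq κ] {B G0 G1 : Matrix ι ι ℝ} {H DH : ℝ → Matrix ι ι ℝ}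

theorem sub_form (σ : κ ≃ ι) (A : Matrix ι ι ℝ) (u : ι → ℝ) :
    (u ∘ σ) ⬝ᵥ (A.submatrix σ σ *ᵥ (u ∘ σ)) = u ⬝ᵥ (A *ᵥ u) := by
  rw [Matrix.submatrix_mulVec_equiv]
  have h1 : (u ∘ σ) ∘ σ.symm = u := by
    funext i
    simp
  rw [h1]
  unfold dotProduct
  exact Equiv.sum_comp σ (fun i => u i * (A *ᵥ u) i)

/-- change of the index set of a pencil -/
theorem isPen_reindex (σ : κ ≃ ι) (P : IsPen p e f g k B G0 G1 H DH) :
    IsPen p e f g k (B.submatrix σ σ) (G0.submatrix σ σ) (G1.submatrix σ σ)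
      (fun s => (H s).submatrix σ σ) (fun s => (DH s).submatrix σ σ) := by
  have hPn : ∀ x0 b h s, Pn (B.submatrix σ σ) (G0.submatrix σ σ) (G1.submatrix σ σ)
      (fun s => (H s).submatrix σ σ) x0 b h s = (Pn B G0 G1 H x0 b h s).submatrix σ σ := by
    intro x0 b h s
    ext i j
    simp only [Pn, Gs, Matrix.add_apply, Matrix.smul_apply, Matrix.submatrix_apply,
      Matrix.one_apply, σ.injective.eq_iff]
  have hDPn : ∀ s x0' b' h' s', DPn (B.submatrix σ σ) (G0.submatrix σ σ) (G1.submatrix σ σ)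
      (fun s => (H s).submatrix σ σ) (fun s => (DH s).submatrix σ σ) s x0' b' h' s' =
      (DPn B G0 G1 H DH s x0' b' h' s').submatrix σ σ := by
    intro s x0' b' h' s'
    ext i j
    simp only [DPn, DGs, Gs, Matrix.add_apply, Matrix.smul_apply, Matrix.submatrix_apply,
      Matrix.one_apply, σ.injective.eq_iff]
  refine ⟨P.symB.submatrix σ, P.sym0.submatrix σ, P.sym1.submatrix σ,
    fun s => (P.symH s).submatrix σ, fun s => (P.symDH s).submatrix σ,
    fun i j => P.nk (σ i) (σ j), ?_, ?_, ?_⟩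
  · filter_upwards [P.det_eq] with s hs x0 b h
    rw [hs, hPn, Matrix.det_submatrix_equiv_self]
  · filter_upwards [P.psd] with s hs x0 b h
    rw [hs, hPn, Matrix.posSemidef_submatrix_equiv]
  · filter_upwards [P.kern] with s hs x0 b h hh hK h0 hd
    obtain ⟨ξ, h1, h2, h3⟩ := hs x0 b h hh hK h0 hd
    refine ⟨ξ ∘ σ, ?_, ?_, fun x0' b' h' s' => ?_⟩
    · rw [← h1]
      unfold dotProduct
      exact Equiv.sum_comp σ (fun i => ξ i * ξ i)
    · rw [hPn, Matrix.submatrix_mulVec_equiv]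
      have h4 : (ξ ∘ σ) ∘ σ.symm = ξ := by
        funext i
        simp
      rw [h4, h2]
      rfl
    · rw [h3, hDPn, sub_form]

end Reindex

section BlockForm

variable {p : MvPolynomial (Fin 4) ℝ} {e z f w : Fin 4 → ℝ} {ζ : (Fin 4 → ℝ) →ₗ[ℝ] ℝ}

/-- **Base `f`**, in a frame of the context -/
theorem exists_pen_f (hp : IsHyperbolic p e) (hirr : Irreducible p) (h : Fr e z ζ f w) :
    ∃ (d : ℕ) (B D G1 : Matrix (Fin d ⊕ Fin d) (Fin d ⊕ Fin d) ℝ)
      (H DH : ℝ → Matrix (Fin d ⊕ Fin d) (Fin d ⊕ Fin d) ℝ),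
      IsPen p e f w z B D G1 H DH ∧
      ∀ s, ∀ u v : Fin d ⊕ Fin d → ℝ, B *ᵥ u = 0 → B *ᵥ v = 0 → u ⬝ᵥ (H s *ᵥ v) = 0 := by
  obtain ⟨F⟩ := fr4_f h
  obtain ⟨d, β, G0, G1, H, DH, h1, h2⟩ := exists_isPen_aff hp hirr F
  exact ⟨d, _, G0, G1, H, DH, h1, h2⟩

/-- **Base `z`**, block form, in a frame of the context -/
theorem exists_pen_z (hp : IsHyperbolic p e) (hirr : Irreducible p) (hz : z ∈ hypCone p e)
    (h : Fr e z ζ f w) :
    ∃ (a b : ℕ) (D' : Matrix (Fin b) (Fin b) ℝ) (A0 A1 : Matrix (Fin a ⊕ Fin b) (Fin a ⊕ Fin b) ℝ)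
      (H DH : ℝ → Matrix (Fin a ⊕ Fin b) (Fin a ⊕ Fin b) ℝ), D'.PosDef ∧
      IsPen p e z w f (Matrix.fromBlocks 0 0 0 D') A0 A1 H DH ∧ ∀ s, (H s).toBlocks₁₁ = 0 := by
  classical
  obtain ⟨F⟩ := fr4_z h
  obtain ⟨d, β, G0, G1, H, DH, h1, h2⟩ := exists_isPen hp hirr F
  let σ0 : {i // bb β i = 0} ⊕ {i // ¬ bb β i = 0} ≃ Fin d ⊕ Fin d :=
    Equiv.sumCompl (fun i => bb β i = 0)
  let σ1 : Fin (Fintype.card {i // bb β i = 0}) ⊕ Fin (Fintype.card {i // ¬ bb β i = 0}) ≃
      {i // bb β i = 0} ⊕ {i // ¬ bb β i = 0} :=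
    Equiv.sumCongr (Fintype.equivFin _).symm (Fintype.equivFin _).symm
  let σ := σ1.trans σ0
  have hl : ∀ i, bb β (σ (Sum.inl i)) = 0 := fun i => ((Fintype.equivFin _).symm i).2
  have hr : ∀ i, bb β (σ (Sum.inr i)) ≠ 0 := fun i => ((Fintype.equivFin _).symm i).2
  have hpsd := isPenZ_D_psd h1 hz
  have hnn : ∀ i, 0 ≤ bb β i := Matrix.posSemidef_diagonal_iff.1 hpsd
  refine ⟨_, _, Matrix.diagonal (fun i => bb β (σ (Sum.inr i))), G0.submatrix σ σ,
    G1.submatrix σ σ, fun s => (H s).submatrix σ σ, fun s => (DH s).submatrix σ σ, ?_, ?_, ?_⟩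
  · exact Matrix.PosDef.diagonal fun i => lt_of_le_of_ne (hnn _) (hr i).symm
  · have h3 := isPen_reindex σ h1
    have h4 : (Matrix.diagonal (bb β)).submatrix σ σ = Matrix.fromBlocks 0 0 0
        (Matrix.diagonal (fun i => bb β (σ (Sum.inr i)))) := by
      ext i j
      rw [Matrix.submatrix_apply, Matrix.diagonal_apply]
      simp only [σ.injective.eq_iff]
      rcases i with i | i <;> rcases j with j | j
      · rw [Matrix.fromBlocks_apply₁₁, Matrix.zero_apply, hl]
        simp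
      · simp
      · simp
      · rw [Matrix.fromBlocks_apply₂₂, Matrix.diagonal_apply]
        simp only [Sum.inr.injEq]
    rw [h4] at h3
    exact h3
  · intro s
    ext i j
    exact h2 s _ _ (hl i) (hl j)

end BlockForm

end Vale.Agent.P256.H858
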