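import Vale.Agent.P256.H858.Lin

/-! Localisation of a hyperbolic polynomial at the base point of a Hermitian pencil. -/

set_option linter.all false

namespace Vale.Agent.P256.H858

open Filter Topology Matrix Vale.Agent.P256 Vale.Agent.P256.H326 Vale.Agent.P256.H387
open scoped ComplexOrder Polynomial

/-- leading coefficient of a real polynomial from a limit -/
theorem poly_lead {f : ℝ[X]} {m : ℕ} {L : ℝ}
    (h : Tendsto (fun t : ℝ => f.eval t / t ^ m) (𝓝[>] 0) (𝓝 L)) :
    (∀ k < m, f.coeff k = 0) ∧ f.coeff m = L := by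
  by_cases hf : f = 0
  · subst hf
    refine ⟨fun k _ => Polynomial.coeff_zero k, ?_⟩
    have h1 : Tendsto (fun t : ℝ => (0 : ℝ[X]).eval t / t ^ m) (𝓝[>] 0) (𝓝 0) := by simp
    rw [Polynomial.coeff_zero]
    exact tendsto_nhds_unique h1 h
  obtain ⟨g, hg, hg2⟩ := Polynomial.exists_eq_pow_rootMultiplicity_mul_and_not_dvd f hf 0
  set r := f.rootMultiplicity 0 with hr
  rw [Polynomial.C_0, sub_zero] at hg hg2
  have hg0 : g.eval 0 ≠ 0 := by
    intro h0
    apply hg2
    have : (Polynomial.X : ℝ[X]) = Polynomial.X - Polynomial.C 0 := by simp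
    rw [this, Polynomial.dvd_iff_isRoot]
    exact h0
  have hid : Tendsto (fun t : ℝ => t) (𝓝[>] (0 : ℝ)) (𝓝 0) :=
    tendsto_id.mono_left nhdsWithin_le_nhds
  have hgt : Tendsto (fun t : ℝ => g.eval t) (𝓝[>] 0) (𝓝 (g.eval 0)) :=
    (g.continuous.tendsto 0).mono_left nhdsWithin_le_nhds
  have hmr : m ≤ r := by
    by_contra hlt
    push Not at hlt
    apply hg0
    have h1 : Tendsto (fun t : ℝ => t ^ (m - r) * (f.eval t / t ^ m)) (𝓝[>] 0) (𝓝 (0 * L)) := by
      refine Tendsto.mul ?_ h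
      have := hid.pow (m - r)
      rwa [zero_pow (by omega)] at this
    rw [zero_mul] at h1
    refine tendsto_nhds_unique (hgt.congr' ?_) h1
    filter_upwards [self_mem_nhdsWithin] with t ht
    have ht' : (0 : ℝ) < t := ht
    rw [hg, Polynomial.eval_mul, Polynomial.eval_pow, Polynomial.eval_X]
    have : t ^ m = t ^ (m - r) * t ^ r := by rw [← pow_add]; congr 1; omega
    rw [this]
    field_simp
  obtain ⟨j, hj⟩ := Nat.exists_eq_add_of_le hmr
  have hfe : f = Polynomial.X ^ m * (Polynomial.X ^ j * g) := by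
    rw [← mul_assoc, ← pow_add, ← hj]
    exact hg
  constructor
  · intro k hk
    rw [hfe, Polynomial.coeff_X_pow_mul']
    rw [if_neg (by omega)]
  · have h1 : Tendsto (fun t : ℝ => (Polynomial.X ^ j * g).eval t) (𝓝[>] 0)
        (𝓝 ((Polynomial.X ^ j * g).eval 0)) :=
      ((Polynomial.X ^ j * g).continuous.tendsto 0).mono_left nhdsWithin_le_nhds
    have h2 : f.coeff m = (Polynomial.X ^ j * g).eval 0 := by
      rw [hfe, Polynomial.coeff_X_pow_mul', if_pos le_rfl, Nat.sub_self,
        Polynomial.coeff_zero_eq_eval_zero]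
    rw [h2]
    refine tendsto_nhds_unique (h1.congr' ?_) h
    filter_upwards [self_mem_nhdsWithin] with t ht
    have ht' : (0 : ℝ) < t := ht
    have h3 : f.eval t = t ^ m * (Polynomial.X ^ j * g).eval t := by
      conv_lhs => rw [hfe]
      rw [Polynomial.eval_mul, Polynomial.eval_pow, Polynomial.eval_X]
    rw [h3, mul_div_cancel_left₀ _ (pow_ne_zero _ ht'.ne')]

/-- coordinates with respect to four vectors -/
structure Fr4 {n : ℕ} (e f g k : Fin n → ℝ) where
  c0 : (Fin n → ℝ) →ₗ[ℝ] ℝ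
  cb : (Fin n → ℝ) →ₗ[ℝ] ℝ
  ca : (Fin n → ℝ) →ₗ[ℝ] ℝ
  ch : (Fin n → ℝ) →ₗ[ℝ] ℝ
  span : ∀ x, x = c0 x • e + cb x • f + ca x • g + ch x • k
  c0_eq : c0 e = 1 ∧ c0 f = 0 ∧ c0 g = 0 ∧ c0 k = 0
  cb_eq : cb e = 0 ∧ cb f = 1 ∧ cb g = 0 ∧ cb k = 0
  ca_eq : ca e = 0 ∧ ca f = 0 ∧ ca g = 1 ∧ ca k = 0
  ch_eq : ch e = 0 ∧ ch f = 0 ∧ ch g = 0 ∧ ch k = 1

/-- a Hermitian pencil on the family of three-spaces `span (e, f, s g + k)`, `s` near `s0` -/
def IsRep {n : ℕ} (p : MvPolynomial (Fin n) ℝ) (e f g k : Fin n → ℝ) {ι : Type*} [Fintype ι]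
    [DecidableEq ι] (β : ι → ℝ) (G : ℝ → Matrix ι ι ℂ) (s0 : ℝ) : Prop :=
  ∀ᶠ s in 𝓝 s0, (G s).IsHermitian ∧ ∀ x0 b h : ℝ,
    ((MvPolynomial.eval (x0 • e + b • f + h • (s • g + k)) p : ℝ) : ℂ) =
      ((MvPolynomial.eval e p : ℝ) : ℂ) *
        ((x0 : ℂ) • (1 : Matrix ι ι ℂ) + (b : ℂ) • Matrix.diagonal (fun i => (β i : ℂ)) +
          (h : ℂ) • G s).det

section Local

variable {n : ℕ} {p : MvPolynomial (Fin n) ℝ} {e f g k : Fin n → ℝ} {ι : Type*} [Fintype ι]
  [DecidableEq ι] {β : ι → ℝ} {G : ℝ → Matrix ι ι ℂ} {s0 : ℝ}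

/-- the block of a matrix on the zero set of `β` -/
def blk (β : ι → ℝ) (M : Matrix ι ι ℂ) : Matrix {i // β i = 0} {i // β i = 0} ℂ :=
  M.submatrix Subtype.val Subtype.val

/-- the product of the nonzero entries of `β` -/
noncomputable def pd (β : ι → ℝ) : ℝ := ∏ i : {i // ¬ β i = 0}, β i

theorem pd_ne_zero (β : ι → ℝ) : pd β ≠ 0 :=
  Finset.prod_ne_zero_iff.2 fun i _ => i.2

/-- leading coefficient at the base point for one matrix -/
theorem lead_one {s : ℝ} (hs : ∀ x0 b h : ℝ,
    ((MvPolynomial.eval (x0 • e + b • f + h • (s • g + k)) p : ℝ) : ℂ) =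
      ((MvPolynomial.eval e p : ℝ) : ℂ) *
        ((x0 : ℂ) • (1 : Matrix ι ι ℂ) + (b : ℂ) • Matrix.diagonal (fun i => (β i : ℂ)) +
          (h : ℂ) • G s).det) (x0 b h : ℝ) :
    (∀ j < Fintype.card {i // β i = 0},
      MvPolynomial.eval (x0 • e + b • f + h • (s • g + k)) (part p f j) = 0) ∧
    ((MvPolynomial.eval (x0 • e + b • f + h • (s • g + k))
      (part p f (Fintype.card {i // β i = 0})) : ℝ) : ℂ) =
      ((MvPolynomial.eval e p : ℝ) : ℂ) * (((x0 : ℂ) • (1 : Matrix {i // β i = 0} _ ℂ) +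
        (h : ℂ) • blk β (G s)).det * (pd β : ℂ)) := by
  classical
  set v := x0 • e + b • f + h • (s • g + k) with hv
  set m := Fintype.card {i // β i = 0} with hm
  let σ : {i // β i = 0} ⊕ {i // ¬ β i = 0} ≃ ι := Equiv.sumCompl (fun i => β i = 0)
  let Hc : Matrix ι ι ℂ := (x0 : ℂ) • (1 : Matrix ι ι ℂ) +
    (b : ℂ) • Matrix.diagonal (fun i => (β i : ℂ)) + (h : ℂ) • G s
  let Λ : Matrix {i // ¬ β i = 0} {i // ¬ β i = 0} ℂ := Matrix.diagonal (fun i => (β i : ℂ))
  have hdiag : (Matrix.diagonal (fun i => (β i : ℂ))).submatrix σ σ =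
      Matrix.fromBlocks 0 0 0 Λ := by
    ext i j
    rcases i with i | i <;> rcases j with j | j
    · simp only [Matrix.submatrix_apply, Matrix.diagonal_apply, Matrix.fromBlocks_apply₁₁,
        Matrix.zero_apply]
      split_ifs
      · have : β (σ (Sum.inl i)) = 0 := i.2
        rw [this, Complex.ofReal_zero]
      · rfl
    · simp only [Matrix.submatrix_apply, Matrix.fromBlocks_apply₁₂, Matrix.zero_apply]
      rw [Matrix.diagonal_apply_ne]
      intro h
      have := σ.injective h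
      exact absurd this (by simp)
    · simp only [Matrix.submatrix_apply, Matrix.fromBlocks_apply₂₁, Matrix.zero_apply]
      rw [Matrix.diagonal_apply_ne]
      intro h
      have := σ.injective h
      exact absurd this (by simp)
    · simp only [Matrix.submatrix_apply, Matrix.fromBlocks_apply₂₂, Matrix.diagonal_apply, Λ]
      have h1 : σ (Sum.inr i) = σ (Sum.inr j) ↔ i = j := by
        rw [σ.injective.eq_iff]; exact Sum.inr_injective.eq_iff
      by_cases hij : i = j
      · rw [if_pos hij, if_pos (h1.2 hij)]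
        rfl
      · rw [if_neg hij, if_neg (fun h => hij (h1.1 h))]
  have hline : ∀ t : ℝ, (((line p f v).eval t : ℝ) : ℂ) =
      ((MvPolynomial.eval e p : ℝ) : ℂ) *
        (Matrix.fromBlocks 0 0 0 Λ + (t : ℂ) • Hc.submatrix σ σ).det := by
    intro t
    rw [eval_line]
    have h1 : f + t • v = (t * x0) • e + (1 + t * b) • f + (t * h) • (s • g + k) := by
      rw [hv]; module
    rw [h1, hs, ← Matrix.det_submatrix_equiv_self σ, ← hdiag]
    congr 2
    ext i j
    simp only [Matrix.submatrix_apply, Matrix.add_apply, Matrix.smul_apply, smul_eq_mul, Hc]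
    push_cast
    ring
  have ht : Tendsto (fun t : ℝ => (t : ℂ)) (𝓝[>] 0) (𝓝 0) := by
    have := (Complex.continuous_ofReal.tendsto 0).mono_left (nhdsWithin_le_nhds (s := Set.Ioi 0))
    simpa using this
  have hlead := tendsto_det_lead (E := {i // β i = 0}) (N := {i // ¬ β i = 0}) ht (by
    filter_upwards [self_mem_nhdsWithin] with t ht
    exact_mod_cast (ne_of_gt ht)) (Λ := Λ) (H := fun _ => Hc.submatrix σ σ)
    (tendsto_const_nhds)
  have hΛ : Λ.det = (pd β : ℂ) := by
    rw [Matrix.det_diagonal]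
    unfold pd
    push_cast
    rfl
  have hblk : (Hc.submatrix σ σ).toBlocks₁₁ = (x0 : ℂ) • (1 : Matrix {i // β i = 0} _ ℂ) +
      (h : ℂ) • blk β (G s) := by
    ext i j
    simp only [Matrix.toBlocks₁₁, Matrix.of_apply, Matrix.submatrix_apply, Matrix.add_apply,
      Matrix.smul_apply, smul_eq_mul, Hc, blk]
    have hi : (σ (Sum.inl i) : ι) = i := rfl
    have hj : (σ (Sum.inl j) : ι) = j := rfl
    rw [hi, hj]
    have h3 : Matrix.diagonal (fun i => (β i : ℂ)) (i : ι) (j : ι) = 0 := by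
      rw [Matrix.diagonal_apply]
      split_ifs
      · rw [i.2, Complex.ofReal_zero]
      · rfl
    rw [h3, mul_zero, add_zero]
    congr 2
    simp only [Matrix.one_apply, Subtype.ext_iff]
  rw [hblk, hΛ] at hlead
  set Lc : ℂ := ((x0 : ℂ) • (1 : Matrix {i // β i = 0} _ ℂ) + (h : ℂ) • blk β (G s)).det *
    (pd β : ℂ) with hLc
  have h4 : Tendsto (fun t : ℝ => (((line p f v).eval t / t ^ m : ℝ) : ℂ)) (𝓝[>] 0)
      (𝓝 (((MvPolynomial.eval e p : ℝ) : ℂ) * Lc)) := by
    refine (hlead.const_mul ((MvPolynomial.eval e p : ℝ) : ℂ)).congr fun t => ?_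
    rw [Complex.ofReal_div, hline, Complex.ofReal_pow, mul_div_assoc]
  have h5 : Tendsto (fun t : ℝ => (line p f v).eval t / t ^ m) (𝓝[>] 0)
      (𝓝 (((MvPolynomial.eval e p : ℝ) : ℂ) * Lc).re) := by
    have := (Complex.continuous_re.tendsto _).comp h4
    simpa only [Function.comp_def, Complex.ofReal_re] using this
  have h6 : ((((MvPolynomial.eval e p : ℝ) : ℂ) * Lc).re : ℂ) =
      ((MvPolynomial.eval e p : ℝ) : ℂ) * Lc := by
    have h7 := (Complex.continuous_ofReal.tendsto _).comp h5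
    exact tendsto_nhds_unique h7 h4
  obtain ⟨h8, h9⟩ := poly_lead h5
  refine ⟨fun j hj => ?_, ?_⟩
  · rw [← coeff_line]; exact h8 j hj
  · rw [← coeff_line, h9, h6]

theorem Fr4.eventually (F : Fr4 e f g k) (s0 : ℝ) {P : ℝ → Prop} (hP : ∀ᶠ s in 𝓝 s0, P s) :
    ∀ᶠ x in 𝓝 (s0 • g + k), F.ch x ≠ 0 ∧ P (F.ca x / F.ch x) := by
  have hc : ∀ φ : (Fin n → ℝ) →ₗ[ℝ] ℝ, Continuous φ := fun φ =>
    LinearMap.continuous_of_finiteDimensional φ
  have h1 : F.ch (s0 • g + k) = 1 := by
    rw [map_add, map_smul, F.ch_eq.2.2.1, F.ch_eq.2.2.2]; simp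
  have h2 : F.ca (s0 • g + k) = s0 := by
    rw [map_add, map_smul, F.ca_eq.2.2.1, F.ca_eq.2.2.2]; simp
  have h3 : ∀ᶠ x in 𝓝 (s0 • g + k), F.ch x ≠ 0 := by
    apply (hc F.ch).continuousAt.eventually_ne
    rw [h1]; exact one_ne_zero
  have h4 : Tendsto (fun x => F.ca x / F.ch x) (𝓝 (s0 • g + k)) (𝓝 s0) := by
    have := ((hc F.ca).tendsto (s0 • g + k)).div ((hc F.ch).tendsto (s0 • g + k))
      (by rw [h1]; exact one_ne_zero)
    rwa [h1, h2, div_one] at this
  exact h3.and (h4.eventually hP)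

theorem Fr4.decomp (F : Fr4 e f g k) {x : Fin n → ℝ} (hx : F.ch x ≠ 0) :
    x = F.c0 x • e + F.cb x • f + F.ch x • ((F.ca x / F.ch x) • g + k) := by
  conv_lhs => rw [F.span x]
  rw [smul_add, smul_smul, mul_div_cancel₀ _ hx]
  abel

/-- the parts of low degree at the base point vanish, the first one is the determinant of the
block -/
theorem loc_parts (F : Fr4 e f g k) (hR : IsRep p e f g k β G s0) :
    (∀ j < Fintype.card {i // β i = 0}, part p f j = 0) ∧
    ∀ᶠ s in 𝓝 s0, ∀ x0 b h : ℝ,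
      ((MvPolynomial.eval (x0 • e + b • f + h • (s • g + k))
        (part p f (Fintype.card {i // β i = 0})) : ℝ) : ℂ) =
        ((MvPolynomial.eval e p : ℝ) : ℂ) * (((x0 : ℂ) • (1 : Matrix {i // β i = 0} _ ℂ) +
          (h : ℂ) • blk β (G s)).det * (pd β : ℂ)) := by
  constructor
  · intro j hj
    refine eq_zero_of_eventually (y := s0 • g + k) ?_
    filter_upwards [F.eventually s0 hR] with x hx
    have := (lead_one hx.2.2 (F.c0 x) (F.cb x) (F.ch x)).1 j hj
    rwa [← F.decomp hx.1] at this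
  · filter_upwards [hR] with s hs x0 b h
    exact (lead_one hs.2 x0 b h).2

theorem part_hyp' (hp : IsHyperbolic p e) {z : Fin n → ℝ} {m : ℕ}
    (hm : ∀ k < m, part p z k = 0) (he : MvPolynomial.eval e (part p z m) ≠ 0) :
    IsHyperbolic (MvPolynomial.C (MvPolynomial.eval e (part p z m))⁻¹ * part p z m) e := by
  refine ⟨⟨m, ?_⟩, ?_, ?_⟩
  · have := (MvPolynomial.isHomogeneous_C (Fin n) (MvPolynomial.eval e (part p z m))⁻¹).mul
      (part_homog p z m)
    rwa [zero_add] at this
  · rw [map_mul, MvPolynomial.eval_C, inv_mul_cancel₀ he]; norm_num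
  intro x t ht
  rw [map_mul, MvPolynomial.aeval_C] at ht
  have ht : MvPolynomial.aeval (fun i => t * (e i : ℂ) - (x i : ℂ)) (part p z m) = 0 := by
    rcases mul_eq_zero.1 ht with h | h
    · exfalso
      apply he
      have h1 : (MvPolynomial.eval e (part p z m))⁻¹ = 0 := by
        simpa using h
      exact inv_eq_zero.1 h1
    · exact h
  set F : ℝ → ℝ[X] := fun b => Polynomial.C ((b ^ m)⁻¹) * line p (z + b • (-x)) (b • e) with hF
  have hsp : (line (part p z m) (-x) e).Splits := by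
    apply splits_of_tendsto (l := 𝓝[>] (0 : ℝ)) (F := F)
    · filter_upwards [self_mem_nhdsWithin] with b hb
      have hb' : (0 : ℝ) < b := hb
      apply splits_of_real_roots
      intro ζ hζ
      rw [hF] at hζ
      simp only [map_mul, Polynomial.aeval_C, mul_eq_zero] at hζ
      rcases hζ with h | h
      · exfalso
        have : ((b ^ m)⁻¹ : ℝ) ≠ 0 := by positivity
        exact this (by simpa using h)
      · rw [aeval_line] at h
        by_contra hne
        apply hp.ne_zero (z + b • (-x)) (ζ * b)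
        · simp only [Complex.mul_im, Complex.ofReal_re, Complex.ofReal_im, mul_zero, zero_add]
          exact mul_ne_zero hne hb'.ne'
        · rw [← h]
          congr 2
          funext i
          simp only [Pi.smul_apply, smul_eq_mul, Complex.ofReal_mul]
          ring
    · intro ζ
      have h1 : ∀ b : ℝ, 0 < b → Polynomial.aeval ζ (F b) =
          blR p z m (b : ℂ) (fun i => ((-x) i : ℂ) + ζ * (e i : ℂ)) := by
        intro b hb
        rw [hF]
        simp only [map_mul, Polynomial.aeval_C]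
        rw [aeval_line]
        have h2 := aeval_expand_m (A := ℂ) hm (b : ℂ) (fun i => (((-x) i : ℝ) : ℂ) + ζ * (e i : ℂ))
        have h3 : (fun i => (((z + b • (-x)) i : ℝ) : ℂ) + ζ * (((b • e) i : ℝ) : ℂ)) =
            (fun i => algebraMap ℝ ℂ (z i) + (b : ℂ) * ((((-x) i : ℝ) : ℂ) + ζ * (e i : ℂ))) := by
          funext i
          simp only [Pi.add_apply, Pi.smul_apply, smul_eq_mul, Complex.ofReal_mul,
            Complex.ofReal_add, Complex.coe_algebraMap]
          ring
        rw [h3, h2]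
        have hb2 : (b : ℂ) ^ m ≠ 0 := by
          apply pow_ne_zero
          exact_mod_cast hb.ne'
        simp only [Complex.coe_algebraMap, Complex.ofReal_inv, Complex.ofReal_pow]
        field_simp
      have h2 : Tendsto (fun b : ℝ =>
          blR p z m (b : ℂ) (fun i => ((-x) i : ℂ) + ζ * (e i : ℂ))) (𝓝[>] 0)
          (𝓝 (blR p z m (0 : ℂ) (fun i => ((-x) i : ℂ) + ζ * (e i : ℂ)))) := by
        have hc : Continuous (fun b : ℝ =>
          blR p z m (b : ℂ) (fun i => (((-x) i : ℝ) : ℂ) + ζ * (e i : ℂ))) :=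
          (continuous_blR_complex p z m).comp
            (Continuous.prodMk Complex.continuous_ofReal continuous_const)
        have := (hc.tendsto 0).mono_left (nhdsWithin_le_nhds (s := Set.Ioi 0))
        simpa only [Pi.neg_apply, Complex.ofReal_neg, Complex.ofReal_zero] using this
      rw [blR_zero, ← aeval_line] at h2
      refine h2.congr' ?_
      filter_upwards [self_mem_nhdsWithin] with b hb
      exact (h1 b hb).symm
  have hne : line (part p z m) (-x) e ≠ 0 := by
    intro h0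
    have := (line_top (part_homog p z m) (-x) e).2
    rw [h0, Polynomial.coeff_zero] at this
    exact he this.symm
  apply Splits.real_roots hsp hne
  rw [aeval_line, ← ht]
  congr 2
  funext i
  simp only [Pi.neg_apply, Complex.ofReal_neg]
  ring

/-- **The block of the pencil at the base point has the spectrum of a linear pencil.** -/
theorem loc_pencil (hp : IsHyperbolic p e) (F : Fr4 e f g k) (hR : IsRep p e f g k β G s0) :
    ∃ A0 A1 : Matrix {i // β i = 0} {i // β i = 0} ℂ, A0.IsHermitian ∧ A1.IsHermitian ∧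
      ∀ᶠ s in 𝓝 s0, ∀ x0 h : ℝ,
        ((x0 : ℂ) • (1 : Matrix {i // β i = 0} _ ℂ) + (h : ℂ) • blk β (G s)).det =
        ((x0 : ℂ) • (1 : Matrix {i // β i = 0} _ ℂ) +
          (h : ℂ) • (A0 + (s : ℂ) • A1)).det := by
  classical
  set m := Fintype.card {i // β i = 0} with hm
  obtain ⟨h1, h2⟩ := loc_parts F hR
  have hpe : ((MvPolynomial.eval e p : ℝ) : ℂ) ≠ 0 := by exact_mod_cast hp.2.1.ne'
  have hpd : (pd β : ℂ) ≠ 0 := by exact_mod_cast pd_ne_zero β
  have he : ((MvPolynomial.eval e (part p f m) : ℝ) : ℂ) =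
      ((MvPolynomial.eval e p : ℝ) : ℂ) * (pd β : ℂ) := by
    obtain ⟨s, hs⟩ := h2.exists
    have := hs 1 0 0
    simpa using this
  have he' : MvPolynomial.eval e (part p f m) ≠ 0 := by
    intro h0
    rw [h0, Complex.ofReal_zero] at he
    exact mul_ne_zero hpe hpd he.symm
  have hq := part_hyp' hp h1 he'
  have hqh : (MvPolynomial.C (MvPolynomial.eval e (part p f m))⁻¹ * part p f m).IsHomogeneous m := by
    have := (MvPolynomial.isHomogeneous_C (Fin n) (MvPolynomial.eval e (part p f m))⁻¹).mul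
      (part_homog p f m)
    rwa [zero_add] at this
  obtain ⟨A, B, hA, hB, hAB⟩ := H909.helton_vinnikov hq hqh k g
  let τ : Fin m ≃ {i // β i = 0} := (Fintype.equivFin _).symm
  refine ⟨A.submatrix τ.symm τ.symm, B.submatrix τ.symm τ.symm, hA.submatrix _, hB.submatrix _, ?_⟩
  filter_upwards [h2] with s hs x0 h
  have h3 := hs x0 0 h
  have h4 := hAB x0 h (h * s)
  have h5 : x0 • e + h • k + (h * s) • g = x0 • e + (0 : ℝ) • f + h • (s • g + k) := by module
  rw [h5, map_mul, MvPolynomial.eval_C, map_mul, MvPolynomial.eval_C, inv_mul_cancel₀ he',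
    Complex.ofReal_one, one_mul, Complex.ofReal_mul, Complex.ofReal_inv, he, h3] at h4
  have h6 : ((x0 : ℂ) • (1 : Matrix {i // β i = 0} _ ℂ) + (h : ℂ) • blk β (G s)).det =
      ((x0 : ℂ) • (1 : Matrix (Fin m) (Fin m) ℂ) + (h : ℂ) • A + ((h * s : ℝ) : ℂ) • B).det := by
    rw [← h4]
    field_simp
  rw [h6, ← Matrix.det_submatrix_equiv_self τ.symm]
  congr 1
  ext i j
  simp only [Matrix.submatrix_apply, Matrix.add_apply, Matrix.smul_apply, smul_eq_mul,
    Matrix.one_apply, τ.symm.injective.eq_iff]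
  push_cast
  ring

end Local

end Vale.Agent.P256.H858
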