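import Vale.Agent.P256.H858.KzP
import Vale.Agent.P256.H387.NKc
import Vale.Agent.P256.H230.Bridge
import Vale.Agent.P256.H283.AffIrr

/-! Existence of the interface pencils for irreducible hyperbolic polynomials in four variables. -/

set_option linter.all false

namespace Vale.Agent.P256.H858

open MvPolynomial Filter Topology Matrix Vale.Agent.P256 Vale.Agent.P256.H326 Vale.Agent.P256.H387
open Vale.Agent.P256.H283
open scoped ComplexOrder ComplexConjugate

section OfNM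

variable {n d : ℕ} {p : MvPolynomial (Fin n) ℝ} {e f g k : Fin n → ℝ} {β : Fin d → ℝ}
  {G : ℝ → Matrix (Fin d) (Fin d) ℂ}

/-- the expansion of a gauged family: the remainder vanishes on the kernel block -/
theorem taylor_gauged (hG : NM 0 G) (hh : ∀ᶠ s in 𝓝 (0 : ℝ), (G s).IsHermitian)
    {A0 A1 : Matrix {i // β i = 0} {i // β i = 0} ℂ}
    (haff : ∀ᶠ s : ℝ in 𝓝 (0 : ℝ), blk β (G s) = A0 + (s : ℂ) • A1) :
    ∃ (M0 M1 : Matrix (Fin d) (Fin d) ℂ) (K : ℝ → Matrix (Fin d) (Fin d) ℂ), M0.IsHermitian ∧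
      M1.IsHermitian ∧ (∀ s, (K s).IsHermitian) ∧ NM 0 K ∧
      (∀ s i j, β i = 0 → β j = 0 → K s i j = 0) ∧
      ∀ᶠ s : ℝ in 𝓝 (0 : ℝ), G s = M0 + (s : ℂ) • M1 + (s : ℂ) ^ 2 • K s := by
  obtain ⟨M0, M1, K, hM0, hM1, hK, hKn, hexp⟩ := H230.NM_taylor_herm hG hh
  simp only [sub_zero] at hexp
  refine ⟨M0, M1, fun s => Matrix.of fun i j => if β i = 0 ∧ β j = 0 then 0 else K s i j, hM0, hM1,
    ?_, ?_, ?_, ?_⟩
  · intro s
    ext i j
    rw [Matrix.conjTranspose_apply]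
    show star (if β j = 0 ∧ β i = 0 then 0 else K s j i) = if β i = 0 ∧ β j = 0 then 0 else K s i j
    by_cases h : β i = 0 ∧ β j = 0
    · rw [if_pos h, if_pos ⟨h.2, h.1⟩, star_zero]
    · rw [if_neg h, if_neg (fun h' => h ⟨h'.2, h'.1⟩)]
      exact congrFun (congrFun (hK s) i) j
  · intro i j
    by_cases h : β i = 0 ∧ β j = 0
    · simp only [Matrix.of_apply, if_pos h]
      exact NA.const 0
    · simp only [Matrix.of_apply, if_neg h]
      exact hKn i j
  · intro s i j hi hj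
    exact if_pos ⟨hi, hj⟩
  · have key : ∀ i j, β i = 0 → β j = 0 → ∀ᶠ s : ℝ in 𝓝 (0 : ℝ), (s : ℂ) ^ 2 * K s i j = 0 := by
      intro i j hi hj
      have h1 : ∀ᶠ s : ℝ in 𝓝 (0 : ℝ), A0 ⟨i, hi⟩ ⟨j, hj⟩ + (s : ℂ) * A1 ⟨i, hi⟩ ⟨j, hj⟩ =
          M0 i j + (s : ℂ) * M1 i j + (s : ℂ) ^ 2 * K s i j := by
        filter_upwards [haff, hexp] with s ha hb
        have h2 := congrFun (congrFun ha ⟨i, hi⟩) ⟨j, hj⟩
        rw [blk, Matrix.submatrix_apply, hb] at h2
        simp only [Matrix.add_apply, Matrix.smul_apply, smul_eq_mul] at h2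
        exact h2.symm
      have h0 : A0 ⟨i, hi⟩ ⟨j, hj⟩ = M0 i j := by
        have := h1.self_of_nhds
        simpa using this
      have h2 : ∀ᶠ s : ℝ in 𝓝[≠] (0 : ℝ), A1 ⟨i, hi⟩ ⟨j, hj⟩ = M1 i j + (s : ℂ) * K s i j := by
        filter_upwards [h1.filter_mono nhdsWithin_le_nhds, self_mem_nhdsWithin] with s hs hs0
        have hs0 : (s : ℂ) ≠ 0 := by exact_mod_cast hs0
        rw [h0] at hs
        have h3 : (s : ℂ) * A1 ⟨i, hi⟩ ⟨j, hj⟩ = (s : ℂ) * (M1 i j + (s : ℂ) * K s i j) := by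
          linear_combination hs
        exact mul_left_cancel₀ hs0 h3
      have h4 : Tendsto (fun s : ℝ => M1 i j + (s : ℂ) * K s i j) (𝓝[≠] (0 : ℝ))
          (𝓝 (M1 i j + ((0 : ℝ) : ℂ) * K 0 i j)) := by
        have hc : ContinuousAt (fun s : ℝ => K s i j) 0 := (hKn i j).an.continuousAt
        have hs : ContinuousAt (fun s : ℝ => (s : ℂ)) 0 := Complex.continuous_ofReal.continuousAt
        exact ((continuousAt_const.add (hs.mul hc)).tendsto).mono_left nhdsWithin_le_nhds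
      have h5 : A1 ⟨i, hi⟩ ⟨j, hj⟩ = M1 i j := by
        have h6 : Tendsto (fun _ : ℝ => A1 ⟨i, hi⟩ ⟨j, hj⟩) (𝓝[≠] (0 : ℝ))
            (𝓝 (A1 ⟨i, hi⟩ ⟨j, hj⟩)) := tendsto_const_nhds
        have h7 := tendsto_nhds_unique (h6.congr' h2) h4
        rw [h7]
        simp
      filter_upwards [h1] with s hs
      rw [h0, h5] at hs
      linear_combination -hs
    have key2 : ∀ᶠ s : ℝ in 𝓝 (0 : ℝ), ∀ i j, β i = 0 → β j = 0 → (s : ℂ) ^ 2 * K s i j = 0 := by
      refine eventually_all.2 fun i => eventually_all.2 fun j => ?_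
      by_cases hi : β i = 0
      · by_cases hj : β j = 0
        · filter_upwards [key i j hi hj] with s hs _ _
          exact hs
        · exact Eventually.of_forall fun s _ h => absurd h hj
      · exact Eventually.of_forall fun s h => absurd h hi
    filter_upwards [hexp, key2] with s hs h2
    rw [hs]
    congr 1
    ext i j
    rw [Matrix.smul_apply, Matrix.smul_apply, Matrix.of_apply, smul_eq_mul, smul_eq_mul]
    by_cases h : β i = 0 ∧ β j = 0
    · rw [if_pos h, h2 i j h.1 h.2, mul_zero]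
    · rw [if_neg h]

theorem nk_rl {K : ℝ → Matrix (Fin d) (Fin d) ℂ} (hK : NM 0 K) (i j : Fin d ⊕ Fin d) :
    NK (fun s => rl (K s) i j) (deriv fun s => rl (K s) i j) := by
  apply nk_of_na
  rcases i with i | i <;> rcases j with j | j
  · exact H230.NA_re (hK i j)
  · have h1 := (H230.NA_im (hK i j)).neg
    refine h1.congr (Eventually.of_forall fun s => ?_)
    show ((-(K s i j).im : ℝ) : ℂ) = -((K s i j).im : ℂ)
    push_cast
    rfl
  · exact H230.NA_im (hK i j)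
  · exact H230.NA_re (hK i j)

/-- **The interface pencil of a gauged Nash representation.** -/
theorem isPen_of_nm (hp : IsHyperbolic p e) (F : Fr4 e f g k) (hG : NM 0 G)
    (hR : IsRep p e f g k β G 0) {A0 A1 : Matrix {i // β i = 0} {i // β i = 0} ℂ}
    (haff : ∀ᶠ s : ℝ in 𝓝 (0 : ℝ), blk β (G s) = A0 + (s : ℂ) • A1) :
    ∃ (G0 G1 : Matrix (Fin d ⊕ Fin d) (Fin d ⊕ Fin d) ℝ)
      (H DH : ℝ → Matrix (Fin d ⊕ Fin d) (Fin d ⊕ Fin d) ℝ),
      IsPen p e f g k (Matrix.diagonal (bb β)) G0 G1 H DH ∧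
      ∀ s i j, bb β i = 0 → bb β j = 0 → H s i j = 0 := by
  obtain ⟨M0, M1, K, hM0, hM1, hK, hKn, hK0, hexp⟩ := taylor_gauged hG (hR.mono fun s h => h.1) haff
  have hsym : ∀ s, (rl (K s)).IsHermitian := fun s => rl_herm (hK s)
  refine ⟨rl M0, rl M1, fun s => rl (K s),
    fun s => Matrix.of fun i j => deriv (fun r => rl (K r) i j) s, ?_, ?_⟩
  · refine isPen_of_rep hp F hR (rl_herm hM0) (rl_herm hM1) hsym ?_ (fun i j => nk_rl hKn i j) ?_
    · intro s
      ext i j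
      rw [Matrix.conjTranspose_apply, Matrix.of_apply, Matrix.of_apply, star_trivial]
      congr 1
      funext r
      have := congrFun (congrFun (hsym r) i) j
      rwa [Matrix.conjTranspose_apply, star_trivial] at this
    · filter_upwards [hexp] with s hs
      rw [Gs, hs, rl_add, rl_add, rl_csmul, ← Complex.ofReal_pow, rl_csmul]
  · intro s i j hi hj
    rcases i with i | i <;> rcases j with j | j
    · show (K s i j).re = 0
      rw [hK0 s i j hi hj]; rfl
    · show -(K s i j).im = 0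
      rw [hK0 s i j hi hj]; simp
    · show (K s i j).im = 0
      rw [hK0 s i j hi hj]; rfl
    · show (K s i j).re = 0
      rw [hK0 s i j hi hj]; rfl

end OfNM

section Exist

variable {n : ℕ} {p : MvPolynomial (Fin n) ℝ} {e f g k : Fin n → ℝ}

/-- **Existence of the interface pencil** at any base point `f`, with the exact affine gauge. -/
theorem exists_isPen (hp : IsHyperbolic p e) (hirr : Irreducible p) (F : Fr4 e f g k) :
    ∃ (d : ℕ) (β : Fin d → ℝ) (G0 G1 : Matrix (Fin d ⊕ Fin d) (Fin d ⊕ Fin d) ℝ)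
      (H DH : ℝ → Matrix (Fin d ⊕ Fin d) (Fin d ⊕ Fin d) ℝ),
      IsPen p e f g k (Matrix.diagonal (bb β)) G0 G1 H DH ∧
      ∀ s i j, bb β i = 0 → bb β j = 0 → H s i j = 0 := by
  obtain ⟨d, hd⟩ := hp.1
  obtain ⟨β, A0, A1, G, hA0, hA1, hG, hR, haff⟩ := affine_irr hp hirr hd F
  obtain ⟨G0, G1, H, DH, h1, h2⟩ := isPen_of_nm hp F hG hR haff
  exact ⟨d, β, G0, G1, H, DH, h1, h2⟩

/-- the gauge in invariant form -/
theorem aff_of_block {ι : Type} [Fintype ι] [DecidableEq ι] {β : ι → ℝ} {H : ℝ → Matrix ι ι ℝ}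
    (h : ∀ s i j, β i = 0 → β j = 0 → H s i j = 0) :
    ∀ s, ∀ u v : ι → ℝ, Matrix.diagonal β *ᵥ u = 0 → Matrix.diagonal β *ᵥ v = 0 →
      u ⬝ᵥ (H s *ᵥ v) = 0 := by
  intro s u v hu hv
  have key : ∀ {u : ι → ℝ}, Matrix.diagonal β *ᵥ u = 0 → ∀ i, β i ≠ 0 → u i = 0 := by
    intro u hu i hi
    have h1 := congrFun hu i
    rw [Matrix.mulVec_diagonal, Pi.zero_apply] at h1
    exact (mul_eq_zero.1 h1).resolve_left hi
  show ∑ i, u i * ∑ j, H s i j * v j = 0
  refine Finset.sum_eq_zero fun i _ => ?_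
  by_cases hi : β i = 0
  · have h1 : ∑ j, H s i j * v j = 0 := by
      refine Finset.sum_eq_zero fun j _ => ?_
      by_cases hj : β j = 0
      · rw [h s i j hi hj, zero_mul]
      · rw [key hv j hj, mul_zero]
    rw [h1, mul_zero]
  · rw [key hu i hi, zero_mul]

/-- **Base `f` and base `z`**, invariant form of the gauge. -/
theorem exists_isPen_aff (hp : IsHyperbolic p e) (hirr : Irreducible p) (F : Fr4 e f g k) :
    ∃ (d : ℕ) (β : Fin d → ℝ) (G0 G1 : Matrix (Fin d ⊕ Fin d) (Fin d ⊕ Fin d) ℝ)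
      (H DH : ℝ → Matrix (Fin d ⊕ Fin d) (Fin d ⊕ Fin d) ℝ),
      IsPen p e f g k (Matrix.diagonal (bb β)) G0 G1 H DH ∧
      ∀ s, ∀ u v : Fin d ⊕ Fin d → ℝ, Matrix.diagonal (bb β) *ᵥ u = 0 →
        Matrix.diagonal (bb β) *ᵥ v = 0 → u ⬝ᵥ (H s *ᵥ v) = 0 := by
  obtain ⟨d, β, G0, G1, H, DH, h1, h2⟩ := exists_isPen hp hirr F
  exact ⟨d, β, G0, G1, H, DH, h1, aff_of_block h2⟩

end Exist

end Vale.Agent.P256.H858
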