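import Vale.Agent.P256.H387.Three

/-! Linear algebra of definite Hermitian representations: membership in the cone, localisation. -/

set_option linter.all false

namespace Vale.Agent.P256.H858

open MvPolynomial Filter Topology Matrix Vale.Agent.P256 Vale.Agent.P256.H326 Vale.Agent.P256.H387
open scoped ComplexOrder

section Psd

variable {ι : Type*} [Fintype ι] [DecidableEq ι]

theorem psd_iff_det_pos {N : Matrix ι ι ℂ} (hN : N.IsHermitian) :
    N.PosSemidef ↔ ∀ t : ℝ, 0 < t → ((t : ℂ) • (1 : Matrix ι ι ℂ) + N).det ≠ 0 := by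
  have key : ∀ t : ℝ, ((t : ℂ) • (1 : Matrix ι ι ℂ) - N).det =
      (-1) ^ Fintype.card ι * (((-t : ℝ) : ℂ) • (1 : Matrix ι ι ℂ) + N).det := by
    intro t
    rw [← Matrix.det_neg]
    congr 1
    ext i j
    simp [Matrix.sub_apply, Matrix.add_apply, Matrix.smul_apply]
    ring
  rw [psd_iff_roots hN]
  constructor
  · intro h t ht h0
    have h1 := h (-t) (by rw [key, neg_neg, h0, mul_zero])
    linarith
  · intro h t h0
    by_contra hneg
    push Not at hneg
    rw [key] at h0
    rcases mul_eq_zero.1 h0 with h1 | h1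
    · exact absurd h1 (pow_ne_zero _ (by norm_num))
    · exact h (-t) (by linarith) h1

end Psd

section Cone

variable {n : ℕ} {p : MvPolynomial (Fin n) ℝ} {e : Fin n → ℝ}

/-- membership in the cone is positive semidefiniteness -/
theorem mem_cone_iff_psd {ι : Type*} [Fintype ι] [DecidableEq ι] (hp : IsHyperbolic p e)
    {N : Matrix ι ι ℂ} (hN : N.IsHermitian) {x : Fin n → ℝ} {c : ℂ} (hc : c ≠ 0)
    (h : ∀ t : ℝ, ((eval (x + t • e) p : ℝ) : ℂ) = c * ((t : ℂ) • (1 : Matrix ι ι ℂ) + N).det) :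
    x ∈ hypCone p e ↔ N.PosSemidef := by
  obtain ⟨d, hd⟩ := hp.1
  rw [mem_hypCone_iff hd, psd_iff_det_pos hN]
  refine forall_congr' fun t => forall_congr' fun ht => not_congr ?_
  have := h t
  constructor
  · intro h0
    rw [h0, Complex.ofReal_zero] at this
    rcases mul_eq_zero.1 this.symm with h1 | h1
    · exact absurd h1 hc
    · exact h1
  · intro h0
    rw [h0, mul_zero] at this
    exact_mod_cast this

end Cone

section Lead

variable {E N : Type*} [Fintype E] [Fintype N] [DecidableEq E] [DecidableEq N]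

/-- leading coefficient of a determinant: block form -/
theorem det_scale_blocks (t : ℂ) (A : Matrix E E ℂ) (B : Matrix E N ℂ) (C : Matrix N E ℂ)
    (D : Matrix N N ℂ) :
    (Matrix.fromBlocks (t • A) (t • B) C D).det =
      t ^ Fintype.card E * (Matrix.fromBlocks A B C D).det := by
  have h1 : Matrix.fromBlocks (t • A) (t • B) C D =
      Matrix.fromBlocks (t • (1 : Matrix E E ℂ)) 0 0 1 * Matrix.fromBlocks A B C D := by
    rw [Matrix.fromBlocks_multiply]
    simp
  rw [h1, Matrix.det_mul, Matrix.det_fromBlocks_zero₂₁, Matrix.det_smul, Matrix.det_one,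
    Matrix.det_one, mul_one, mul_one]

/-- leading term of `det (diag(0, Λ) + t H)`, `H → H₀` -/
theorem tendsto_det_lead {Z : Type*} {l : Filter Z} {t : Z → ℂ} (ht : Tendsto t l (𝓝 0))
    (ht0 : ∀ᶠ z in l, t z ≠ 0) {Λ : Matrix N N ℂ} {H : Z → Matrix (E ⊕ N) (E ⊕ N) ℂ}
    {H0 : Matrix (E ⊕ N) (E ⊕ N) ℂ} (hH : Tendsto H l (𝓝 H0)) :
    Tendsto (fun z => ((Matrix.fromBlocks 0 0 0 Λ + t z • H z).det) / t z ^ Fintype.card E) l
      (𝓝 ((H0.toBlocks₁₁).det * Λ.det)) := by
  have h1 : ∀ᶠ z in l, (Matrix.fromBlocks (H z).toBlocks₁₁ (H z).toBlocks₁₂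
      (t z • (H z).toBlocks₂₁) (Λ + t z • (H z).toBlocks₂₂)).det =
      ((Matrix.fromBlocks 0 0 0 Λ + t z • H z).det) / t z ^ Fintype.card E := by
    filter_upwards [ht0] with z hz
    rw [eq_div_iff (pow_ne_zero _ hz), mul_comm, ← det_scale_blocks]
    congr 1
    conv_rhs => rw [← Matrix.fromBlocks_toBlocks (H z), Matrix.fromBlocks_smul,
      Matrix.fromBlocks_add]
    simp
  refine Tendsto.congr' h1 ?_
  have h2 : (H0.toBlocks₁₁).det * Λ.det = (Matrix.fromBlocks H0.toBlocks₁₁ H0.toBlocks₁₂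
      (0 : Matrix N E ℂ) Λ).det := by
    rw [Matrix.det_fromBlocks_zero₂₁]
  rw [h2]
  have h3 : Continuous (fun M : Matrix (E ⊕ N) (E ⊕ N) ℂ => M.det) :=
    continuous_id.matrix_det
  refine (h3.tendsto _).comp ?_
  refine tendsto_pi_nhds.2 fun i => tendsto_pi_nhds.2 fun j => ?_
  have hij : ∀ i j, Tendsto (fun z => H z i j) l (𝓝 (H0 i j)) := fun i j =>
    (tendsto_pi_nhds.1 ((tendsto_pi_nhds.1 hH) i)) j
  rcases i with i | i <;> rcases j with j | j
  · simpa [Matrix.fromBlocks, Matrix.toBlocks₁₁] using hij (Sum.inl i) (Sum.inl j)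
  · simpa [Matrix.fromBlocks, Matrix.toBlocks₁₂] using hij (Sum.inl i) (Sum.inr j)
  · have := ht.mul (hij (Sum.inr i) (Sum.inl j))
    simpa [Matrix.fromBlocks, Matrix.toBlocks₂₁] using this
  · have := (ht.mul (hij (Sum.inr i) (Sum.inr j))).const_add (Λ i j)
    simpa [Matrix.fromBlocks, Matrix.toBlocks₂₂] using this

end Lead

end Vale.Agent.P256.H858
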