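import Vale.Agent.P256.H858.Block
import Vale.Agent.P256.H387.Rep
import Vale.Agent.P256.H186.Fin

/-! Glue: a tangent vector transversal to the flat line gives the data of case (NC). -/

set_option linter.all false

namespace Vale.Agent.P256.H858

open MvPolynomial Filter Topology Matrix Vale.Agent.P256 Vale.Agent.P256.H326 Vale.Agent.P256.H387

variable {p : MvPolynomial (Fin 4) ℝ} {e z : Fin 4 → ℝ} {U V : Ultrafilter (Fin 4 → ℝ)}
  {ζ : (Fin 4 → ℝ) →ₗ[ℝ] ℝ} {f w : Fin 4 → ℝ}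

/-- the tangent cone is invariant under adding multiples of `z` -/
theorem Kz_add_z (hp : IsHyperbolic p e) (hz : z ∈ hypCone p e) {v : Fin 4 → ℝ}
    (hv : v ∈ Kz p e z) (c : ℝ) : v + c • z ∈ Kz p e z := by
  have h1 := TC_of_mem hp hz (K_zero hp) c
  rw [zero_add] at h1
  exact TC_add hp hv h1

/-- **Data of case (NC)** in a frame. -/
theorem nc_frame (C : Ctx p e z U V ζ) (Fm : Fr e z ζ f w) {b1 a1 : ℝ} (ha1 : 0 < a1)
    (hv : b1 • f + a1 • w ∈ Kz p e z)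
    (hflat : ∀ (d : ℕ) (B D G1 : Matrix (Fin d ⊕ Fin d) (Fin d ⊕ Fin d) ℝ)
      (H DH : ℝ → Matrix (Fin d ⊕ Fin d) (Fin d ⊕ Fin d) ℝ), IsPen p e f w z B D G1 H DH →
      ∀ R : KRep (Fin d ⊕ Fin d) (U : Filter (Fin 4 → ℝ)) (V : Filter (Fin 4 → ℝ)) (sl p e)
        (crd e z f w), R.B = B → R.D = D → R.G1 = G1 → R.H = H →
        R.B *ᵥ R.ξ0 = 0 ∧ R.G1 *ᵥ R.ξ0 ≠ 0) :
    H186.HasNC U V (sl p e) (crd e z f w) := by
  obtain ⟨d, B, D, G1, H, DH, P, haff⟩ := exists_pen_f C.hyp C.irr Fm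
  obtain ⟨R, hB, hD, hG, hH, hDH⟩ := exists_krep C Fm P
  obtain ⟨h1, h2⟩ := hflat d B D G1 H DH P R hB hD hG hH
  refine ⟨Fin d ⊕ Fin d, inferInstance, inferInstance, R, h1, ?_, h2, b1, a1, ha1, fun u hu => ?_⟩
  · rw [hH]
    rw [hB] at h1
    exact haff 0 _ _ h1 h1
  · have h3 := (mem_Kz_f P C.hz.1 0 b1 a1).1 (by rwa [zero_smul, zero_add])
    rw [hD] at hu
    have h4 := h3 u hu
    rw [zero_smul, zero_add, form_add, form_smul, form_smul] at h4
    rw [hB, hG]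
    exact h4

/-- the tangent vector in another frame on the flat line -/
theorem nc_vec (hp : IsHyperbolic p e) (hz : z ∈ hypCone p e) {fc : Fin 4 → ℝ} {k μ b1 a1 : ℝ}
    (hf : f = k • z + μ • fc) (hv : b1 • f + a1 • w ∈ Kz p e z) :
    (b1 * μ) • fc + a1 • w ∈ Kz p e z := by
  have h1 := Kz_add_z hp hz hv (-(b1 * k))
  have h2 : b1 • f + a1 • w + (-(b1 * k)) • z = (b1 * μ) • fc + a1 • w := by
    rw [hf]; module
  rwa [h2] at h1

end Vale.Agent.P256.H858
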