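import Vale.Agent.P256.H858.Real
import Vale.Agent.P256.H387.Iface

/-! From a Hermitian representation on a family of three-dimensional spaces to the real symmetric
pencils `IsPen` of the interface. -/

set_option linter.all false

namespace Vale.Agent.P256.H858

open MvPolynomial Filter Topology Matrix Vale.Agent.P256 Vale.Agent.P256.H326 Vale.Agent.P256.H387
open scoped ComplexOrder ComplexConjugate

section Deriv

variable {ι : Type} [Fintype ι] [DecidableEq ι] {G0 G1 : Matrix ι ι ℝ} {H DH : ℝ → Matrix ι ι ℝ}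

theorem hasDerivAt_Gs (nk : ∀ i j, NK (fun s => H s i j) (fun s => DH s i j)) :
    ∀ᶠ s in 𝓝 (0 : ℝ), ∀ i j, HasDerivAt (fun s => Gs G0 G1 H s i j) (DGs G1 H DH s i j) s := by
  have h1 : ∀ᶠ s in 𝓝 (0 : ℝ), ∀ i j, HasDerivAt (fun s => H s i j) (DH s i j) s :=
    eventually_all.2 fun i => eventually_all.2 fun j => (nk i j).der
  filter_upwards [h1] with s hs i j
  have h2 : HasDerivAt (fun s : ℝ => G0 i j + s * G1 i j + s ^ 2 * H s i j)
      (1 * G1 i j + ((2 * s) * H s i j + s ^ 2 * DH s i j)) s := by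
    have h3 : HasDerivAt (fun s : ℝ => s ^ 2) (2 * s) s := by
      simpa using hasDerivAt_pow 2 s
    exact (((hasDerivAt_id s).mul_const (G1 i j)).const_add (G0 i j)).add (h3.mul (hs i j))
  have e1 : (fun s => Gs G0 G1 H s i j) = fun s : ℝ => G0 i j + s * G1 i j + s ^ 2 * H s i j := by
    funext s
    simp only [Gs, Matrix.add_apply, Matrix.smul_apply, smul_eq_mul]
  have e2 : DGs G1 H DH s i j = 1 * G1 i j + ((2 * s) * H s i j + s ^ 2 * DH s i j) := by
    simp only [DGs, Matrix.add_apply, Matrix.smul_apply, smul_eq_mul]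
    ring
  rw [e1, e2]
  exact h2

end Deriv

section Main

variable {n d : ℕ} {p : MvPolynomial (Fin n) ℝ} {e f g k : Fin n → ℝ} {β : Fin d → ℝ}
  {G : ℝ → Matrix (Fin d) (Fin d) ℂ} {G0 G1 : Matrix (Fin d ⊕ Fin d) (Fin d ⊕ Fin d) ℝ}
  {H DH : ℝ → Matrix (Fin d ⊕ Fin d) (Fin d ⊕ Fin d) ℝ}

/-- the complex derivative of the matrix family -/
noncomputable def DC (G1 : Matrix (Fin d ⊕ Fin d) (Fin d ⊕ Fin d) ℝ)
    (H DH : ℝ → Matrix (Fin d ⊕ Fin d) (Fin d ⊕ Fin d) ℝ) (s : ℝ) : Matrix (Fin d) (Fin d) ℂ :=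
  Matrix.of fun i j => ⟨DGs G1 H DH s (Sum.inl i) (Sum.inl j), DGs G1 H DH s (Sum.inr i) (Sum.inl j)⟩

theorem deriv_DC (nk : ∀ i j, NK (fun s => H s i j) (fun s => DH s i j))
    (hG : ∀ᶠ s in 𝓝 (0 : ℝ), Gs G0 G1 H s = rl (G s)) :
    ∀ᶠ s in 𝓝 (0 : ℝ), (∀ i j, HasDerivAt (fun s => G s i j) (DC G1 H DH s i j) s) ∧
      rl (DC G1 H DH s) = DGs G1 H DH s := by
  filter_upwards [hG.eventually_nhds, hasDerivAt_Gs (G0 := G0) (G1 := G1) nk] with s h1 h2
  have hre : ∀ i j, (fun r => Gs G0 G1 H r (Sum.inl i) (Sum.inl j)) =ᶠ[𝓝 s] fun r => (G r i j).re :=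
    fun i j => h1.mono fun r hr => by beta_reduce; rw [hr]; rfl
  have hre' : ∀ i j, (fun r => Gs G0 G1 H r (Sum.inr i) (Sum.inr j)) =ᶠ[𝓝 s] fun r => (G r i j).re :=
    fun i j => h1.mono fun r hr => by beta_reduce; rw [hr]; rfl
  have him : ∀ i j, (fun r => Gs G0 G1 H r (Sum.inr i) (Sum.inl j)) =ᶠ[𝓝 s] fun r => (G r i j).im :=
    fun i j => h1.mono fun r hr => by beta_reduce; rw [hr]; rfl
  have him' : ∀ i j, (fun r => Gs G0 G1 H r (Sum.inl i) (Sum.inr j)) =ᶠ[𝓝 s]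
      fun r => -(G r i j).im :=
    fun i j => h1.mono fun r hr => by beta_reduce; rw [hr]; rfl
  have dre := fun i j => (h2 (Sum.inl i) (Sum.inl j)).congr_of_eventuallyEq (hre i j).symm
  have dre' := fun i j => (h2 (Sum.inr i) (Sum.inr j)).congr_of_eventuallyEq (hre' i j).symm
  have dim := fun i j => (h2 (Sum.inr i) (Sum.inl j)).congr_of_eventuallyEq (him i j).symm
  have dim' := fun i j => (h2 (Sum.inl i) (Sum.inr j)).congr_of_eventuallyEq (him' i j).symm
  constructor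
  · intro i j
    have h3 := (dre i j).ofReal_comp.add ((dim i j).ofReal_comp.mul_const Complex.I)
    have e1 : (fun r => G r i j) = fun r => (((G r i j).re : ℝ) : ℂ) +
        (((G r i j).im : ℝ) : ℂ) * Complex.I := by
      funext r
      exact (Complex.re_add_im _).symm
    have e2 : DC G1 H DH s i j = ((DGs G1 H DH s (Sum.inl i) (Sum.inl j) : ℝ) : ℂ) +
        ((DGs G1 H DH s (Sum.inr i) (Sum.inl j) : ℝ) : ℂ) * Complex.I := by
      rw [DC, Matrix.of_apply]
      exact (Complex.mk_eq_add_mul_I _ _)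
    rw [e1, e2]
    exact h3
  · ext (i | i) (j | j)
    · rfl
    · show -(DGs G1 H DH s (Sum.inr i) (Sum.inl j)) = DGs G1 H DH s (Sum.inl i) (Sum.inr j)
      exact (dim i j).neg.unique (dim' i j)
    · rfl
    · show DGs G1 H DH s (Sum.inl i) (Sum.inl j) = DGs G1 H DH s (Sum.inr i) (Sum.inr j)
      exact (dre i j).unique (dre' i j)

/-- the representation as a function on the space -/
noncomputable def MM (F : Fr4 e f g k) (β : Fin d → ℝ) (G : ℝ → Matrix (Fin d) (Fin d) ℂ)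
    (y : Fin n → ℝ) : Matrix (Fin d) (Fin d) ℂ :=
  (F.c0 y : ℂ) • (1 : Matrix (Fin d) (Fin d) ℂ) +
    (F.cb y : ℂ) • Matrix.diagonal (fun i => (β i : ℂ)) + (F.ch y : ℂ) • G (F.ca y / F.ch y)

/-- coordinates of a point -/
theorem Fr4.coords (F : Fr4 e f g k) (x0 b h s : ℝ) :
    F.c0 (x0 • e + b • f + h • (k + s • g)) = x0 ∧ F.cb (x0 • e + b • f + h • (k + s • g)) = b ∧
      F.ca (x0 • e + b • f + h • (k + s • g)) = h * s ∧
      F.ch (x0 • e + b • f + h • (k + s • g)) = h := by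
  obtain ⟨a1, a2, a3, a4⟩ := F.c0_eq
  obtain ⟨b1, b2, b3, b4⟩ := F.cb_eq
  obtain ⟨c1, c2, c3, c4⟩ := F.ca_eq
  obtain ⟨d1, d2, d3, d4⟩ := F.ch_eq
  refine ⟨?_, ?_, ?_, ?_⟩ <;>
  · simp only [map_add, map_smul, a1, a2, a3, a4, b1, b2, b3, b4, c1, c2, c3, c4, d1, d2, d3, d4,
      smul_eq_mul]
    ring

theorem lin_line (φ : (Fin n → ℝ) →ₗ[ℝ] ℝ) (y x : Fin n → ℝ) :
    HasDerivAt (fun τ : ℝ => φ (y + τ • x)) (φ x) 0 := by
  have h1 : (fun τ : ℝ => φ (y + τ • x)) = fun τ : ℝ => φ y + τ * φ x := by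
    funext τ
    rw [map_add, map_smul, smul_eq_mul]
  rw [h1]
  simpa using ((hasDerivAt_id (0 : ℝ)).mul_const (φ x)).const_add (φ y)

/-- the directional derivative of the representation -/
theorem hasDerivAt_MM (F : Fr4 e f g k) {y : Fin n → ℝ} (hy : F.ch y ≠ 0)
    {G' : Matrix (Fin d) (Fin d) ℂ}
    (hG : ∀ i j, HasDerivAt (fun s => G s i j) (G' i j) (F.ca y / F.ch y)) (x : Fin n → ℝ)
    (i j : Fin d) :
    HasDerivAt (fun τ : ℝ => MM F β G (y + τ • x) i j)
      (((F.c0 x : ℂ) • (1 : Matrix (Fin d) (Fin d) ℂ) +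
        (F.cb x : ℂ) • Matrix.diagonal (fun i => (β i : ℂ)) +
        (F.ch x : ℂ) • G (F.ca y / F.ch y) +
        ((F.ca x - F.ca y / F.ch y * F.ch x : ℝ) : ℂ) • G') i j) 0 := by
  have h0 := (lin_line F.c0 y x).ofReal_comp.mul_const ((1 : Matrix (Fin d) (Fin d) ℂ) i j)
  have h1 := (lin_line F.cb y x).ofReal_comp.mul_const
    ((Matrix.diagonal (fun i => (β i : ℂ)) : Matrix (Fin d) (Fin d) ℂ) i j)
  have hch := lin_line F.ch y x
  have hca := lin_line F.ca y x
  have hq : HasDerivAt (fun τ : ℝ => F.ca (y + τ • x) / F.ch (y + τ • x))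
      ((F.ca x * F.ch y - F.ca y * F.ch x) / (F.ch y) ^ 2) 0 := by
    have h5 : F.ch (y + (0 : ℝ) • x) ≠ 0 := by rw [zero_smul, add_zero]; exact hy
    have h6 := hca.fun_div hch h5
    rw [zero_smul, add_zero] at h6
    exact h6
  have h2 : HasDerivAt (fun τ : ℝ => G (F.ca (y + τ • x) / F.ch (y + τ • x)) i j)
      ((((F.ca x * F.ch y - F.ca y * F.ch x) / (F.ch y) ^ 2 : ℝ) : ℂ) * G' i j) 0 := by
    have h3 : HasDerivAt (fun s => G s i j) (G' i j) (F.ca (y + (0 : ℝ) • x) / F.ch (y + (0 : ℝ) • x)) := by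
      rw [zero_smul, add_zero]; exact hG i j
    have h4 := h3.scomp (0 : ℝ) hq
    rw [← Complex.real_smul]
    exact h4
  have h3 := hch.ofReal_comp.mul h2
  have h4 := (h0.add h1).add h3
  have e1 : (fun τ : ℝ => MM F β G (y + τ • x) i j) = fun τ : ℝ =>
      ((F.c0 (y + τ • x) : ℝ) : ℂ) * (1 : Matrix (Fin d) (Fin d) ℂ) i j +
      ((F.cb (y + τ • x) : ℝ) : ℂ) * (Matrix.diagonal (fun i => (β i : ℂ)) :
        Matrix (Fin d) (Fin d) ℂ) i j +
      ((F.ch (y + τ • x) : ℝ) : ℂ) * G (F.ca (y + τ • x) / F.ch (y + τ • x)) i j := by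
    funext τ
    simp only [MM, Matrix.add_apply, Matrix.smul_apply, smul_eq_mul]
  rw [e1]
  refine h4.congr_deriv ?_
  simp only [Matrix.add_apply, Matrix.smul_apply, smul_eq_mul, zero_smul, add_zero]
  have hy' : ((F.ch y : ℝ) : ℂ) ≠ 0 := by exact_mod_cast hy
  push_cast
  field_simp
  ring

/-- **The interface pencil of a Hermitian representation.** -/
theorem isPen_of_rep (hp : IsHyperbolic p e) (F : Fr4 e f g k) (hR : IsRep p e f g k β G 0)
    (sym0 : G0.IsHermitian) (sym1 : G1.IsHermitian) (symH : ∀ s, (H s).IsHermitian)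
    (symDH : ∀ s, (DH s).IsHermitian) (nk : ∀ i j, NK (fun s => H s i j) (fun s => DH s i j))
    (hG : ∀ᶠ s in 𝓝 (0 : ℝ), Gs G0 G1 H s = rl (G s)) :
    IsPen p e f g k (Matrix.diagonal (bb β)) G0 G1 H DH := by
  have hpe : ((MvPolynomial.eval e p : ℝ) : ℂ) ≠ 0 := by exact_mod_cast hp.2.1.ne'
  have hPn : ∀ s, Gs G0 G1 H s = rl (G s) → ∀ x0 b h : ℝ,
      Pn (Matrix.diagonal (bb β)) G0 G1 H x0 b h s =
      rl ((x0 : ℂ) • (1 : Matrix (Fin d) (Fin d) ℂ) +
        (b : ℂ) • Matrix.diagonal (fun i => (β i : ℂ)) + (h : ℂ) • G s) := by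
    intro s hs x0 b h
    rw [rl_pencil, Pn, hs]
  have hherm : ∀ s, (G s).IsHermitian → ∀ x0 b h : ℝ,
      ((x0 : ℂ) • (1 : Matrix (Fin d) (Fin d) ℂ) +
        (b : ℂ) • Matrix.diagonal (fun i => (β i : ℂ)) + (h : ℂ) • G s).IsHermitian := by
    intro s hs x0 b h
    have h1 : ∀ (c : ℝ) {B : Matrix (Fin d) (Fin d) ℂ}, B.IsHermitian →
        ((c : ℂ) • B).IsHermitian := by
      intro c B hB
      show ((c : ℂ) • B)ᴴ = (c : ℂ) • B
      rw [Matrix.conjTranspose_smul, hB, Complex.star_def, Complex.conj_ofReal]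
    refine ((h1 _ Matrix.isHermitian_one).add (h1 _ ?_)).add (h1 _ hs)
    rw [Matrix.IsHermitian, Matrix.diagonal_conjTranspose]
    congr 1
    funext i
    simp
  have hcomm : ∀ s x0 b h : ℝ, x0 • e + b • f + h • (k + s • g) =
      x0 • e + b • f + h • (s • g + k) := fun s x0 b h => by rw [add_comm k]
  have hdetreal : ∀ s, (G s).IsHermitian → ∀ x0 b h : ℝ, (starRingEnd ℂ)
      ((x0 : ℂ) • (1 : Matrix (Fin d) (Fin d) ℂ) +
        (b : ℂ) • Matrix.diagonal (fun i => (β i : ℂ)) + (h : ℂ) • G s).det =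
      ((x0 : ℂ) • (1 : Matrix (Fin d) (Fin d) ℂ) +
        (b : ℂ) • Matrix.diagonal (fun i => (β i : ℂ)) + (h : ℂ) • G s).det := by
    intro s hs x0 b h
    rw [← Complex.star_def, ← Matrix.det_conjTranspose, hherm s hs x0 b h]
  refine ⟨?_, sym0, sym1, symH, symDH, nk, ?_, ?_, ?_⟩
  · rw [Matrix.IsHermitian, Matrix.diagonal_conjTranspose]
    congr 1
  · -- determinant
    filter_upwards [hR, hG] with s hs hs2 x0 b h
    rw [hPn s hs2, det_rl, hcomm]
    have h1 := hs.2 x0 b h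
    set Δ := ((x0 : ℂ) • (1 : Matrix (Fin d) (Fin d) ℂ) +
        (b : ℂ) • Matrix.diagonal (fun i => (β i : ℂ)) + (h : ℂ) • G s).det with hΔ
    have h2 : ((Complex.normSq Δ : ℝ) : ℂ) = Δ * Δ := by
      rw [← Complex.mul_conj, hdetreal s hs.1]
    have h3 : ((MvPolynomial.eval (x0 • e + b • f + h • (s • g + k)) p ^ 2 : ℝ) : ℂ) =
        ((MvPolynomial.eval e p ^ 2 * Complex.normSq Δ : ℝ) : ℂ) := by
      rw [Complex.ofReal_pow, h1, Complex.ofReal_mul, h2]
      push_cast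
      ring
    exact_mod_cast h3
  · -- positivity
    filter_upwards [hR, hG] with s hs hs2 x0 b h
    rw [hPn s hs2, rl_psd_iff (hherm s hs.1 x0 b h), hcomm]
    refine mem_cone_iff_psd hp (hherm s hs.1 x0 b h) hpe fun t => ?_
    have h1 : x0 • e + b • f + h • (s • g + k) + t • e =
        (t + x0) • e + b • f + h • (s • g + k) := by module
    rw [h1, hs.2]
    congr 2
    push_cast
    module
  · -- kernel functional
    filter_upwards [hR.eventually_nhds, hG, deriv_DC nk hG] with s hs hs2 hs3 x0 b h hh hK h0 hs4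
    set y := x0 • e + b • f + h • (k + s • g) with hy
    obtain ⟨y1, y2, y3, y4⟩ := F.coords x0 b h s
    rw [← hy] at y1 y2 y3 y4
    have hsy : F.ca y / F.ch y = s := by rw [y3, y4, mul_div_cancel_left₀ _ hh.ne']
    have hchy : F.ch y ≠ 0 := by rw [y4]; exact hh.ne'
    have hMy : MM F β G y = (x0 : ℂ) • (1 : Matrix (Fin d) (Fin d) ℂ) +
        (b : ℂ) • Matrix.diagonal (fun i => (β i : ℂ)) + (h : ℂ) • G s := by
      rw [MM, hsy, y1, y2, y4]
    have hs0 := hs.self_of_nhds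
    have hdet : ∀ᶠ x in 𝓝 y, ((MvPolynomial.eval x p : ℝ) : ℂ) =
        ((MvPolynomial.eval e p : ℝ) : ℂ) * (MM F β G x).det := by
      have hc : ∀ φ : (Fin n → ℝ) →ₗ[ℝ] ℝ, Continuous φ := fun φ =>
        LinearMap.continuous_of_finiteDimensional φ
      have h3 : ∀ᶠ x in 𝓝 y, F.ch x ≠ 0 :=
        (hc F.ch).continuousAt.eventually_ne hchy
      have h4 : Tendsto (fun x => F.ca x / F.ch x) (𝓝 y) (𝓝 s) := by
        have := ((hc F.ca).tendsto y).div ((hc F.ch).tendsto y) hchy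
        rwa [hsy] at this
      filter_upwards [h3, h4.eventually hs] with x hx1 hx2
      have := hx2.2 (F.c0 x) (F.cb x) (F.ch x)
      rw [← F.decomp hx1] at this
      exact this
    have hpsd : (MM F β G y).PosSemidef := by
      rw [hMy]
      refine (mem_cone_iff_psd hp (hherm s hs0.1 x0 b h) hpe fun t => ?_).1 hK
      have h1 : y + t • e = (t + x0) • e + b • f + h • (s • g + k) := by
        rw [hy, hcomm]; module
      rw [h1, hs0.2]
      congr 2
      push_cast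
      module
    let M' : (Fin n → ℝ) → Matrix (Fin d) (Fin d) ℂ := fun x =>
      (F.c0 x : ℂ) • (1 : Matrix (Fin d) (Fin d) ℂ) +
        (F.cb x : ℂ) • Matrix.diagonal (fun i => (β i : ℂ)) +
        (F.ch x : ℂ) • G (F.ca y / F.ch y) +
        ((F.ca x - F.ca y / F.ch y * F.ch x : ℝ) : ℂ) • DC G1 H DH s
    have hM'e : M' e = 1 := by
      simp only [M', F.c0_eq.1, F.cb_eq.1, F.ca_eq.1, F.ch_eq.1]
      simp
    obtain ⟨ξ, hξ1, hξ2, hξ3⟩ := kern_functional (M := MM F β G) (M' := M')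
      (κ := MvPolynomial.eval e p) hdet hpsd h0 hs4 hp.2.1.ne'
      (fun x i j => hasDerivAt_MM F hchy (by rw [hsy]; exact hs3.1) x i j) hM'e
    refine ⟨rv ξ, ?_, ?_, fun x0' b' h' s' => ?_⟩
    · rw [rv_dot, hξ1, Complex.one_re]
    · rw [hPn s hs2, ← hMy, rl_mulVec, hξ2]
      funext i
      rcases i with i | i <;> simp [rv]
    · rw [hξ3, ← rl_form]
      congr 3
      obtain ⟨z1, z2, z3, z4⟩ := F.coords x0' b' h' s'
      have e1 : M' (x0' • e + b' • f + h' • (k + s' • g)) =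
          (x0' : ℂ) • (1 : Matrix (Fin d) (Fin d) ℂ) +
          (b' : ℂ) • Matrix.diagonal (fun i => (β i : ℂ)) +
          (h' : ℂ) • (G s + ((s' - s : ℝ) : ℂ) • DC G1 H DH s) := by
        simp only [M']
        rw [z1, z2, z3, z4, hsy, smul_add, smul_smul, ← add_assoc]
        congr 2
        push_cast
        ring
      rw [e1, rl_pencil, rl_add, rl_csmul, hs3.2, DPn, hs2]

end Main

end Vale.Agent.P256.H858
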