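import Vale.Agent.P256.H858.Tan

/-! Realification of Hermitian matrices: determinant, diagonal matrices, scalars. -/

set_option linter.all false

namespace Vale.Agent.P256.H858

open MvPolynomial Filter Topology Matrix Vale.Agent.P256 Vale.Agent.P256.H326 Vale.Agent.P256.H387
open scoped ComplexOrder ComplexConjugate

section Rl

variable {ι : Type*} [Fintype ι] [DecidableEq ι]

/-- doubled diagonal -/
def bb (β : ι → ℝ) : ι ⊕ ι → ℝ := Sum.elim β β

theorem rl_one : rl (1 : Matrix ι ι ℂ) = 1 := by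
  ext (i | i) (j | j)
  · simp only [rl, Matrix.fromBlocks_apply₁₁, Matrix.map_apply, Matrix.one_apply,
      Sum.inl.injEq]
    split_ifs <;> simp
  · simp only [rl, Matrix.fromBlocks_apply₁₂, Matrix.neg_apply, Matrix.map_apply,
      Matrix.one_apply, reduceCtorEq, if_false]
    split_ifs <;> simp
  · simp only [rl, Matrix.fromBlocks_apply₂₁, Matrix.map_apply, Matrix.one_apply,
      reduceCtorEq, if_false]
    split_ifs <;> simp
  · simp only [rl, Matrix.fromBlocks_apply₂₂, Matrix.map_apply, Matrix.one_apply,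
      Sum.inr.injEq]
    split_ifs <;> simp

theorem rl_diag (β : ι → ℝ) :
    rl (Matrix.diagonal (fun i => (β i : ℂ))) = Matrix.diagonal (bb β) := by
  ext (i | i) (j | j)
  · simp only [rl, Matrix.fromBlocks_apply₁₁, Matrix.map_apply, Matrix.diagonal_apply,
      Sum.inl.injEq, bb, Sum.elim_inl]
    split_ifs <;> simp
  · simp only [rl, Matrix.fromBlocks_apply₁₂, Matrix.neg_apply, Matrix.map_apply,
      Matrix.diagonal_apply, reduceCtorEq, if_false]
    split_ifs <;> simp
  · simp only [rl, Matrix.fromBlocks_apply₂₁, Matrix.map_apply, Matrix.diagonal_apply,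
      reduceCtorEq, if_false]
    split_ifs <;> simp
  · simp only [rl, Matrix.fromBlocks_apply₂₂, Matrix.map_apply, Matrix.diagonal_apply,
      Sum.inr.injEq, bb, Sum.elim_inr]
    split_ifs <;> simp

theorem rl_csmul (c : ℝ) (M : Matrix ι ι ℂ) : rl ((c : ℂ) • M) = c • rl M := by
  rw [← rl_smul]
  congr 1

/-- the pencil in real form -/
theorem rl_pencil (β : ι → ℝ) (G : Matrix ι ι ℂ) (x0 b h : ℝ) :
    rl ((x0 : ℂ) • (1 : Matrix ι ι ℂ) + (b : ℂ) • Matrix.diagonal (fun i => (β i : ℂ)) +
      (h : ℂ) • G) = x0 • (1 : Matrix (ι ⊕ ι) (ι ⊕ ι) ℝ) + b • Matrix.diagonal (bb β) + h • rl G := by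
  rw [rl_add, rl_add, rl_csmul, rl_csmul, rl_csmul, rl_one, rl_diag]

/-- determinant of the real form -/
theorem det_rl (M : Matrix ι ι ℂ) : (rl M).det = Complex.normSq M.det := by
  have h1 : (((rl M).det : ℝ) : ℂ) = ((rl M).map (Complex.ofRealHom : ℝ →+* ℂ)).det := by
    rw [← RingHom.mapMatrix_apply, ← RingHom.map_det]
    rfl
  have h2 : (rl M).map (Complex.ofRealHom : ℝ →+* ℂ) =
      Matrix.fromBlocks (M.map fun a => (a.re : ℂ)) (-(M.map fun a => (a.im : ℂ)))
        (M.map fun a => (a.im : ℂ)) (M.map fun a => (a.re : ℂ)) := by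
    ext (i | i) (j | j) <;> simp [rl]
  set A : Matrix ι ι ℂ := M.map fun a => (a.re : ℂ) with hA
  set B : Matrix ι ι ℂ := M.map fun a => (a.im : ℂ) with hB
  have h3 : A + Complex.I • B = M := by
    ext i j
    simp only [hA, hB, Matrix.add_apply, Matrix.smul_apply, Matrix.map_apply, smul_eq_mul]
    rw [mul_comm]
    exact Complex.re_add_im _
  have h4 : A - Complex.I • B = M.map (starRingEnd ℂ) := by
    ext i j
    simp only [hA, hB, Matrix.sub_apply, Matrix.smul_apply, Matrix.map_apply, smul_eq_mul]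
    rw [Complex.ext_iff]
    simp
  have h5 : Matrix.fromBlocks (1 : Matrix ι ι ℂ) (Complex.I • (1 : Matrix ι ι ℂ)) 0 1 *
      Matrix.fromBlocks A (-B) B A *
      Matrix.fromBlocks (1 : Matrix ι ι ℂ) (-(Complex.I • (1 : Matrix ι ι ℂ))) 0 1 =
      Matrix.fromBlocks (A + Complex.I • B) 0 B (A - Complex.I • B) := by
    rw [Matrix.fromBlocks_multiply, Matrix.fromBlocks_multiply]
    congr 1
    · simp
    · simp only [one_mul, smul_mul_assoc, mul_one, mul_neg, mul_smul_comm, smul_add, smul_smul,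
        Complex.I_mul_I, neg_smul, one_smul]
      abel
    · simp
    · simp only [one_mul, zero_mul, zero_add, mul_one, mul_neg, mul_smul_comm]
      abel
  have h6 := congrArg Matrix.det h5
  rw [Matrix.det_mul, Matrix.det_mul, Matrix.det_fromBlocks_zero₂₁, Matrix.det_fromBlocks_zero₂₁,
    Matrix.det_one, one_mul, one_mul, mul_one, Matrix.det_fromBlocks_zero₁₂, h3,
    h4] at h6
  have h7 : (M.map (starRingEnd ℂ)).det = (starRingEnd ℂ) M.det := by
    rw [RingHom.map_det]
    rfl
  have h8 : (((rl M).det : ℝ) : ℂ) = ((Complex.normSq M.det : ℝ) : ℂ) := by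
    rw [h1, h2, h6, h7, Complex.mul_conj]
  exact_mod_cast h8

end Rl

end Vale.Agent.P256.H858
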