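import Vale.Agent.P256.H858.Loc

/-! The tangent cone of a hyperbolicity cone at a point, and its description by the compression of
a real symmetric representation to the kernel at the point. -/

set_option linter.all false

namespace Vale.Agent.P256.H858

open MvPolynomial Filter Topology Matrix Vale.Agent.P256 Vale.Agent.P256.H326 Vale.Agent.P256.H387

section Limits

variable {Z ι : Type*} [Fintype ι]

/-- unit vectors have unit limits along ultrafilters -/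
theorem exists_lim_unit (W : Ultrafilter Z) {u : Z → ι → ℝ} (hu : ∀ᶠ z in (W : Filter Z), u z ⬝ᵥ u z = 1) :
    ∃ u0 : ι → ℝ, Tendsto u W (𝓝 u0) ∧ u0 ⬝ᵥ u0 = 1 := by
  have hcomp : IsCompact (Metric.closedBall (0 : ι → ℝ) 1) := isCompact_closedBall 0 1
  have hle : ((W.map u : Ultrafilter (ι → ℝ)) : Filter (ι → ℝ)) ≤
      𝓟 (Metric.closedBall (0 : ι → ℝ) 1) := by
    rw [le_principal_iff]
    show ∀ᶠ z in (W : Filter Z), u z ∈ Metric.closedBall (0 : ι → ℝ) 1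
    filter_upwards [hu] with z hz
    rw [mem_closedBall_zero_iff, pi_norm_le_iff_of_nonneg zero_le_one]
    intro i
    rw [Real.norm_eq_abs]
    have h1 : u z i * u z i ≤ u z ⬝ᵥ u z :=
      Finset.single_le_sum (f := fun k => u z k * u z k) (fun k _ => mul_self_nonneg _)
        (Finset.mem_univ i)
    rw [hz] at h1
    exact abs_le_one_iff_mul_self_le_one.2 h1
  obtain ⟨u0, -, hu0⟩ := hcomp.ultrafilter_le_nhds _ hle
  have ht : Tendsto u W (𝓝 u0) := hu0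
  refine ⟨u0, ht, ?_⟩
  have hc : Continuous (fun v : ι → ℝ => v ⬝ᵥ v) := by
    unfold dotProduct
    fun_prop
  have h2 := (hc.tendsto u0).comp ht
  have h3 : Tendsto (fun _ : Z => (1 : ℝ)) W (𝓝 1) := tendsto_const_nhds
  refine tendsto_nhds_unique (h2.congr' ?_) h3
  filter_upwards [hu] with z hz
  exact hz

theorem continuous_form : Continuous (fun q : (ι → ℝ) × Matrix ι ι ℝ => q.1 ⬝ᵥ (q.2 *ᵥ q.1)) := by
  unfold dotProduct Matrix.mulVec dotProduct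
  fun_prop

theorem tendsto_form {l : Filter Z} {u : Z → ι → ℝ} {u0 : ι → ℝ} {K : Z → Matrix ι ι ℝ}
    {K0 : Matrix ι ι ℝ} (hu : Tendsto u l (𝓝 u0)) (hK : Tendsto K l (𝓝 K0)) :
    Tendsto (fun z => u z ⬝ᵥ (K z *ᵥ u z)) l (𝓝 (u0 ⬝ᵥ (K0 *ᵥ u0))) :=
  (continuous_form.tendsto (u0, K0)).comp (hu.prodMk_nhds hK)

theorem form_add (A B : Matrix ι ι ℝ) (u : ι → ℝ) :
    u ⬝ᵥ ((A + B) *ᵥ u) = u ⬝ᵥ (A *ᵥ u) + u ⬝ᵥ (B *ᵥ u) := by
  rw [Matrix.add_mulVec, dotProduct_add]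

theorem form_smul (c : ℝ) (A : Matrix ι ι ℝ) (u : ι → ℝ) :
    u ⬝ᵥ ((c • A) *ᵥ u) = c * (u ⬝ᵥ (A *ᵥ u)) := by
  rw [Matrix.smul_mulVec, dotProduct_smul, smul_eq_mul]

theorem psd_form {A : Matrix ι ι ℝ} (hA : A.PosSemidef) (u : ι → ℝ) : 0 ≤ u ⬝ᵥ (A *ᵥ u) := by
  have := hA.dotProduct_mulVec_nonneg u
  rwa [star_trivial] at this

theorem psd_of_form {A : Matrix ι ι ℝ} (hA : A.IsHermitian) (h : ∀ u, 0 ≤ u ⬝ᵥ (A *ᵥ u)) :
    A.PosSemidef :=
  Matrix.PosSemidef.of_dotProduct_mulVec_nonneg hA fun u => by rw [star_trivial]; exact h u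

/-- the kernel of a positive semidefinite matrix is the zero set of its form -/
theorem psd_ker {A : Matrix ι ι ℝ} (hA : A.PosSemidef) {u : ι → ℝ} (h : u ⬝ᵥ (A *ᵥ u) = 0) :
    A *ᵥ u = 0 := by
  have := hA.dotProduct_mulVec_zero_iff u
  rw [star_trivial] at this
  exact this.1 h

/-- not positive semidefinite: a unit vector with negative form -/
theorem exists_neg_unit {A : Matrix ι ι ℝ} (hA : A.IsHermitian) (h : ¬ A.PosSemidef) :
    ∃ u : ι → ℝ, u ⬝ᵥ u = 1 ∧ u ⬝ᵥ (A *ᵥ u) < 0 := by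
  by_contra hcon
  push Not at hcon
  apply h
  refine psd_of_form hA fun u => ?_
  by_cases hu : u ⬝ᵥ u = 0
  · have : u = 0 := dotProduct_self_eq_zero.1 hu
    rw [this]; simp
  have hpos : 0 < u ⬝ᵥ u := lt_of_le_of_ne (Finset.sum_nonneg fun i _ => mul_self_nonneg _)
    (Ne.symm hu)
  set r := Real.sqrt (u ⬝ᵥ u) with hr
  have hr0 : 0 < r := Real.sqrt_pos.2 hpos
  have hrr : r * r = u ⬝ᵥ u := Real.mul_self_sqrt hpos.le
  have h1 := hcon (r⁻¹ • u) (by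
    rw [smul_dotProduct, dotProduct_smul, smul_eq_mul, smul_eq_mul, ← hrr]
    field_simp)
  rw [Matrix.mulVec_smul, smul_dotProduct, dotProduct_smul, smul_eq_mul, smul_eq_mul] at h1
  by_contra hneg
  push Not at hneg
  have h2 : r⁻¹ * (r⁻¹ * (u ⬝ᵥ (A *ᵥ u))) < 0 :=
    mul_neg_of_pos_of_neg (inv_pos.2 hr0) (mul_neg_of_pos_of_neg (inv_pos.2 hr0) hneg)
  linarith

/-- first order perturbation: positivity on the kernel suffices -/
theorem psd_near {D K0 : Matrix ι ι ℝ} (hD : D.PosSemidef)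
    (hpos : ∀ u : ι → ℝ, D *ᵥ u = 0 → u ⬝ᵥ u = 1 → 0 < u ⬝ᵥ (K0 *ᵥ u)) {K : ℝ → Matrix ι ι ℝ}
    (hH : ∀ᶠ t in 𝓝[>] (0 : ℝ), (K t).IsHermitian) (hK : Tendsto K (𝓝[>] (0 : ℝ)) (𝓝 K0)) :
    ∀ᶠ t in 𝓝[>] (0 : ℝ), (D + t • K t).PosSemidef := by
  by_contra hcon
  have hfr : ∃ᶠ t in 𝓝[>] (0 : ℝ), ¬ (D + t • K t).PosSemidef := by
    rwa [Filter.not_eventually] at hcon
  have hne : (𝓝[>] (0 : ℝ) ⊓ 𝓟 {t | ¬ (D + t • K t).PosSemidef}).NeBot :=
    frequently_mem_iff_neBot.1 hfr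
  obtain ⟨W, hW⟩ := Ultrafilter.exists_le (𝓝[>] (0 : ℝ) ⊓ 𝓟 {t | ¬ (D + t • K t).PosSemidef})
  have hW1 : (W : Filter ℝ) ≤ 𝓝[>] (0 : ℝ) := hW.trans inf_le_left
  have hW2 : ∀ᶠ t in (W : Filter ℝ), ¬ (D + t • K t).PosSemidef :=
    (le_principal_iff.1 (hW.trans inf_le_right))
  have hsym : ∀ᶠ t in (W : Filter ℝ), (D + t • K t).IsHermitian := by
    filter_upwards [hW1 hH] with t ht
    have h2 : (t • K t).IsHermitian := by
      show (t • K t)ᴴ = t • K t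
      rw [Matrix.conjTranspose_smul, star_trivial, ht.eq]
    exact hD.1.add h2
  have hch : ∀ t : ℝ, ∃ u : ι → ℝ, ((D + t • K t).IsHermitian ∧ ¬ (D + t • K t).PosSemidef) →
      u ⬝ᵥ u = 1 ∧ u ⬝ᵥ ((D + t • K t) *ᵥ u) < 0 := by
    intro t
    by_cases h : (D + t • K t).IsHermitian ∧ ¬ (D + t • K t).PosSemidef
    · obtain ⟨u, hu⟩ := exists_neg_unit h.1 h.2
      exact ⟨u, fun _ => hu⟩
    · exact ⟨0, fun h' => absurd h' h⟩
  choose u hu using hch
  have hu' : ∀ᶠ t in (W : Filter ℝ), u t ⬝ᵥ u t = 1 ∧ u t ⬝ᵥ ((D + t • K t) *ᵥ u t) < 0 := by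
    filter_upwards [hsym, hW2] with t h1 h2
    exact hu t ⟨h1, h2⟩
  obtain ⟨u0, hu0, hu1⟩ := exists_lim_unit W (u := u) (hu'.mono fun t h => h.1)
  have hKW : Tendsto K W (𝓝 K0) := hK.mono_left hW1
  have htW : Tendsto (fun t : ℝ => t) W (𝓝 0) := by
    have : Tendsto (fun t : ℝ => t) (𝓝[>] (0 : ℝ)) (𝓝 0) :=
      tendsto_id.mono_left nhdsWithin_le_nhds
    exact this.mono_left hW1
  have hpt : ∀ᶠ t in (W : Filter ℝ), 0 < t := hW1 self_mem_nhdsWithin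
  have h1 : Tendsto (fun t => u t ⬝ᵥ (D *ᵥ u t)) W (𝓝 (u0 ⬝ᵥ (D *ᵥ u0))) :=
    tendsto_form hu0 tendsto_const_nhds
  have h2 : Tendsto (fun t => u t ⬝ᵥ (K t *ᵥ u t)) W (𝓝 (u0 ⬝ᵥ (K0 *ᵥ u0))) :=
    tendsto_form hu0 hKW
  have h3 : u0 ⬝ᵥ (D *ᵥ u0) ≤ 0 := by
    have h4 : Tendsto (fun t => u t ⬝ᵥ (D *ᵥ u t) + t * (u t ⬝ᵥ (K t *ᵥ u t))) W
        (𝓝 (u0 ⬝ᵥ (D *ᵥ u0) + 0 * (u0 ⬝ᵥ (K0 *ᵥ u0)))) := h1.add (htW.mul h2)
    rw [zero_mul, add_zero] at h4
    refine le_of_tendsto h4 ?_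
    filter_upwards [hu'] with t ht
    have := ht.2
    rw [form_add, form_smul] at this
    exact this.le
  have h5 : D *ᵥ u0 = 0 := psd_ker hD (le_antisymm h3 (psd_form hD u0))
  have h6 := hpos u0 h5 hu1
  have h7 : u0 ⬝ᵥ (K0 *ᵥ u0) ≤ 0 := by
    refine le_of_tendsto h2 ?_
    filter_upwards [hu', hpt] with t ht ht0
    have h8 := ht.2
    rw [form_add, form_smul] at h8
    have h9 := psd_form hD (u t)
    by_contra hc
    push Not at hc
    have := mul_pos ht0 hc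
    linarith
  linarith

end Limits

section TC

variable {n : ℕ} {p : MvPolynomial (Fin n) ℝ} {e z : Fin n → ℝ}

/-- the tangent cone of the hyperbolicity cone at `z` -/
def TC (p : MvPolynomial (Fin n) ℝ) (e z : Fin n → ℝ) : Set (Fin n → ℝ) :=
  {v | ∀ ε : ℝ, 0 < ε → ∀ᶠ t in 𝓝[>] (0 : ℝ), z + t • (v + ε • e) ∈ hypCone p e}

theorem TC_add (hp : IsHyperbolic p e) {v w : Fin n → ℝ} (hv : v ∈ TC p e z)
    (hw : w ∈ TC p e z) : v + w ∈ TC p e z := by
  intro ε hε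
  have hh : Tendsto (fun t : ℝ => 2 * t) (𝓝[>] (0 : ℝ)) (𝓝[>] (0 : ℝ)) := by
    refine tendsto_nhdsWithin_iff.2 ⟨?_, ?_⟩
    · have : Tendsto (fun t : ℝ => 2 * t) (𝓝 (0 : ℝ)) (𝓝 (2 * 0)) :=
        (continuous_const.mul continuous_id).tendsto 0
      rw [mul_zero] at this
      exact this.mono_left nhdsWithin_le_nhds
    · filter_upwards [self_mem_nhdsWithin] with t ht
      have : (0 : ℝ) < t := ht
      show (0 : ℝ) < 2 * t
      linarith
  filter_upwards [hh.eventually (hv (ε / 2) (by linarith)), hh.eventually (hw (ε / 2) (by linarith))]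
    with t h1 h2
  have h3 := K_add hp (K_smul hp h1 (c := 1 / 2) (by norm_num)) (K_smul hp h2 (c := 1 / 2)
    (by norm_num))
  convert h3 using 1
  module

theorem TC_smul (hp : IsHyperbolic p e) (hz : z ∈ hypCone p e) {v : Fin n → ℝ}
    (hv : v ∈ TC p e z) {c : ℝ} (hc : 0 ≤ c) : c • v ∈ TC p e z := by
  intro ε hε
  rcases hc.eq_or_lt with hc0 | hc0
  · filter_upwards [self_mem_nhdsWithin] with t ht
    have : (0 : ℝ) < t := ht
    rw [← hc0, zero_smul, zero_add, smul_smul]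
    exact K_add hp hz (K_smul hp ((e_inOpen hp).mem hp) (by positivity))
  · have hh : Tendsto (fun t : ℝ => c * t) (𝓝[>] (0 : ℝ)) (𝓝[>] (0 : ℝ)) := by
      refine tendsto_nhdsWithin_iff.2 ⟨?_, ?_⟩
      · have : Tendsto (fun t : ℝ => c * t) (𝓝 (0 : ℝ)) (𝓝 (c * 0)) :=
          (continuous_const.mul continuous_id).tendsto 0
        rw [mul_zero] at this
        exact this.mono_left nhdsWithin_le_nhds
      · filter_upwards [self_mem_nhdsWithin] with t ht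
        have : (0 : ℝ) < t := ht
        show (0 : ℝ) < c * t
        positivity
    filter_upwards [hh.eventually (hv (ε / c) (by positivity))] with t h1
    have h2 : z + t • (c • v + ε • e) = z + (c * t) • (v + (ε / c) • e) := by
      have h3 : c * t * (ε / c) = t * ε := by field_simp
      rw [smul_add, smul_add, smul_smul, smul_smul, smul_smul, h3, mul_comm t c]
    rw [h2]; exact h1

/-- differences of points of the cone are tangent vectors -/
theorem TC_of_mem (hp : IsHyperbolic p e) (hz : z ∈ hypCone p e) {x : Fin n → ℝ}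
    (hx : x ∈ hypCone p e) (c : ℝ) : x + c • z ∈ TC p e z := by
  intro ε hε
  have h1 : ∀ᶠ t in 𝓝[>] (0 : ℝ), 0 < 1 + t * c := by
    have : Tendsto (fun t : ℝ => 1 + t * c) (𝓝[>] (0 : ℝ)) (𝓝 (1 + 0 * c)) :=
      ((continuous_const.add (continuous_id.mul continuous_const)).tendsto 0).mono_left
        nhdsWithin_le_nhds
    rw [zero_mul, add_zero] at this
    exact this.eventually (lt_mem_nhds one_pos)
  filter_upwards [h1, self_mem_nhdsWithin] with t ht ht0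
  have ht0 : (0 : ℝ) < t := ht0
  have h2 : z + t • (x + c • z + ε • e) = (1 + t * c) • z + (t • x + (t * ε) • e) := by module
  rw [h2]
  exact K_add hp (K_smul hp hz ht.le) (K_add hp (K_smul hp hx ht0.le)
    (K_smul hp ((e_inOpen hp).mem hp) (by positivity)))

/-- a functional that is nonnegative on the cone and vanishes at `z` is nonnegative on tangent
vectors -/
theorem TC_nonneg (ζ : (Fin n → ℝ) →ₗ[ℝ] ℝ) (hζ : ∀ x ∈ hypCone p e, 0 ≤ ζ x) (hz : ζ z = 0)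
    {v : Fin n → ℝ} (hv : v ∈ TC p e z) : 0 ≤ ζ v := by
  have h1 : ∀ ε : ℝ, 0 < ε → 0 ≤ ζ v + ε * ζ e := by
    intro ε hε
    obtain ⟨t, ht, ht0⟩ := ((hv ε hε).and self_mem_nhdsWithin).exists
    have ht0 : (0 : ℝ) < t := ht0
    have h2 := hζ _ ht
    rw [map_add, hz, zero_add, map_smul, map_add, map_smul, smul_eq_mul, smul_eq_mul] at h2
    by_contra hneg
    push Not at hneg
    have := mul_neg_of_pos_of_neg ht0 hneg
    linarith
  have h3 : Tendsto (fun ε : ℝ => ζ v + ε * ζ e) (𝓝[>] (0 : ℝ)) (𝓝 (ζ v + 0 * ζ e)) :=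
    ((continuous_const.add (continuous_id.mul continuous_const)).tendsto 0).mono_left
      nhdsWithin_le_nhds
  rw [zero_mul, add_zero] at h3
  refine ge_of_tendsto h3 ?_
  filter_upwards [self_mem_nhdsWithin] with ε hε
  exact h1 ε hε

/-- **Tangent vectors are the vectors with positive semidefinite compression.** -/
theorem mem_TC_iff {ι : Type*} [Fintype ι] [DecidableEq ι] {v : Fin n → ℝ}
    {D K0 : Matrix ι ι ℝ} {K : ℝ → Matrix ι ι ℝ} (hD : D.PosSemidef)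
    (hH : ∀ᶠ t in 𝓝[>] (0 : ℝ), (K t).IsHermitian) (hK : Tendsto K (𝓝[>] (0 : ℝ)) (𝓝 K0))
    (hmem : ∀ᶠ t in 𝓝[>] (0 : ℝ), ∀ τ : ℝ, (z + t • v + τ • e ∈ hypCone p e ↔
      (τ • (1 : Matrix ι ι ℝ) + (D + t • K t)).PosSemidef)) :
    v ∈ TC p e z ↔ ∀ u : ι → ℝ, D *ᵥ u = 0 → 0 ≤ u ⬝ᵥ (K0 *ᵥ u) := by
  have hone : ∀ u : ι → ℝ, u ⬝ᵥ ((1 : Matrix ι ι ℝ) *ᵥ u) = u ⬝ᵥ u := fun u => by
    rw [Matrix.one_mulVec]
  constructor
  · intro hv u hu
    have h0 : ∀ ε : ℝ, 0 < ε → 0 ≤ ε * (u ⬝ᵥ u) + u ⬝ᵥ (K0 *ᵥ u) := by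
      intro ε hε
      have h1 : Tendsto (fun t : ℝ => ε * (u ⬝ᵥ u) + u ⬝ᵥ (K t *ᵥ u)) (𝓝[>] (0 : ℝ))
          (𝓝 (ε * (u ⬝ᵥ u) + u ⬝ᵥ (K0 *ᵥ u))) :=
        tendsto_const_nhds.add (tendsto_form tendsto_const_nhds hK)
      refine ge_of_tendsto h1 ?_
      filter_upwards [hv ε hε, hmem, self_mem_nhdsWithin] with t h2 h3 h4
      have h4 : (0 : ℝ) < t := h4
      have h5 : z + t • (v + ε • e) = z + t • v + (t * ε) • e := by module
      rw [h5, h3] at h2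
      have h6 := psd_form h2 u
      rw [form_add, form_smul, hone, form_add, form_smul, hu, dotProduct_zero, zero_add] at h6
      have h7 : 0 ≤ t * (ε * (u ⬝ᵥ u) + u ⬝ᵥ (K t *ᵥ u)) := by linarith
      exact nonneg_of_mul_nonneg_right h7 h4
    have h8 : Tendsto (fun ε : ℝ => ε * (u ⬝ᵥ u) + u ⬝ᵥ (K0 *ᵥ u)) (𝓝[>] (0 : ℝ))
        (𝓝 (0 * (u ⬝ᵥ u) + u ⬝ᵥ (K0 *ᵥ u))) :=
      (((continuous_id.mul continuous_const).add continuous_const).tendsto 0).mono_left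
        nhdsWithin_le_nhds
    rw [zero_mul, zero_add] at h8
    refine ge_of_tendsto h8 ?_
    filter_upwards [self_mem_nhdsWithin] with ε hε
    exact h0 ε hε
  · intro h ε hε
    have h1 := psd_near (K := fun t => ε • (1 : Matrix ι ι ℝ) + K t)
      (K0 := ε • (1 : Matrix ι ι ℝ) + K0) hD ?_ ?_ ?_
    · filter_upwards [h1, hmem] with t h2 h3
      have h5 : z + t • (v + ε • e) = z + t • v + (t * ε) • e := by module
      rw [h5, h3]
      convert h2 using 1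
      rw [smul_add, smul_smul]
      abel
    · intro u hu hu1
      rw [form_add, form_smul, hone, hu1, mul_one]
      have := h u hu
      linarith
    · filter_upwards [hH] with t ht
      have h2 : (ε • (1 : Matrix ι ι ℝ)).IsHermitian := by
        show (ε • (1 : Matrix ι ι ℝ))ᴴ = ε • (1 : Matrix ι ι ℝ)
        rw [Matrix.conjTranspose_smul, star_trivial, Matrix.conjTranspose_one]
      exact h2.add ht
    · exact tendsto_const_nhds.add hK

end TC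

end Vale.Agent.P256.H858
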